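import Mathlib

namespace Vale.Agent.P143

open MeasureTheory unitInterval

noncomputable def dens (m x : ℝ) : ℝ := 1 + (2 * m - 1) * (2 * x - 1) / 8

noncomputable def cdfF (m x : ℝ) : ℝ := x + (2 * m - 1) / 8 * (x ^ 2 - x)

noncomputable def Qf (m u : ℝ) : ℝ :=
  2 * u / ((1 - (2 * m - 1) / 8) + √((1 - (2 * m - 1) / 8) ^ 2 + 4 * ((2 * m - 1) / 8) * u))

noncomputable def lam (x : ℝ) : ℝ := Real.log (7 + 2 * x) - Real.log (9 - 2 * x)

lemma cdfF_sub {m x y : ℝ} (hm : m ∈ Set.Icc (0 : ℝ) 1) (hx : x ∈ Set.Icc (0 : ℝ) 1)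
    (hy : y ∈ Set.Icc (0 : ℝ) 1) : 7 / 8 * |x - y| ≤ |cdfF m x - cdfF m y| := by
  have : cdfF m x - cdfF m y = (1 + (2 * m - 1) / 8 * (x + y - 1)) * (x - y) := by
    unfold cdfF; ring
  rw [this, abs_mul]
  refine mul_le_mul_of_nonneg_right (le_trans ?_ (le_abs_self _)) (abs_nonneg _)
  obtain ⟨a, b⟩ := hm; obtain ⟨c, d⟩ := hx; obtain ⟨e, f⟩ := hy
  nlinarith [mul_nonneg a (add_nonneg c e), mul_nonneg (sub_nonneg.2 b)
    (add_nonneg (sub_nonneg.2 d) (sub_nonneg.2 f))]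

lemma cdfF_mem {m x : ℝ} (hm : m ∈ Set.Icc (0 : ℝ) 1) (hx : x ∈ Set.Icc (0 : ℝ) 1) :
    cdfF m x ∈ Set.Icc (0 : ℝ) 1 := by
  obtain ⟨a, b⟩ := hm; obtain ⟨c, d⟩ := hx
  have h := mul_nonneg c (sub_nonneg.2 d)
  unfold cdfF
  constructor <;> nlinarith [mul_nonneg a h, mul_nonneg (sub_nonneg.2 b) h]

lemma Qf_spec {m u : ℝ} (hm : m ∈ Set.Icc (0 : ℝ) 1) (hu : u ∈ Set.Icc (0 : ℝ) 1) :
    Qf m u ∈ Set.Icc (0 : ℝ) 1 ∧ cdfF m (Qf m u) = u := by
  obtain ⟨a, b⟩ := hm; obtain ⟨c, d⟩ := hu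
  unfold Qf cdfF
  set s := (2 * m - 1) / 8 with hs
  have s1 : -(1 / 8) ≤ s := by linarith
  have s2 : s ≤ 1 / 8 := by linarith
  have hD : 0 ≤ (1 - s) ^ 2 + 4 * s * u := by nlinarith
  have hr := Real.sq_sqrt hD
  have hr0 := Real.sqrt_nonneg ((1 - s) ^ 2 + 4 * s * u)
  set r := √((1 - s) ^ 2 + 4 * s * u)
  have hden : 0 < 1 - s + r := by linarith
  refine ⟨⟨by positivity, ?_⟩, ?_⟩
  · rw [div_le_one hden]
    by_contra hcon
    push Not at hcon
    have h1 : r < 2 * u - (1 - s) := by linarith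
    have h2 : r ^ 2 < (2 * u - (1 - s)) ^ 2 := by nlinarith
    nlinarith
  · field_simp
    linear_combination (-u) * hr

lemma Qf_cdfF {m x : ℝ} (hm : m ∈ Set.Icc (0 : ℝ) 1) (hx : x ∈ Set.Icc (0 : ℝ) 1) :
    Qf m (cdfF m x) = x := by
  obtain ⟨h1, h2⟩ := Qf_spec hm (cdfF_mem hm hx)
  have := cdfF_sub hm h1 hx
  rw [h2, sub_self, abs_zero] at this
  have h3 : |Qf m (cdfF m x) - x| ≤ 0 := by linarith
  exact sub_eq_zero.1 (abs_nonpos_iff.1 h3)

lemma Qf_lip {m m' u : ℝ} (hm : m ∈ Set.Icc (0 : ℝ) 1) (hm' : m' ∈ Set.Icc (0 : ℝ) 1)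
    (hu : u ∈ Set.Icc (0 : ℝ) 1) : |Qf m u - Qf m' u| ≤ |m - m'| / 14 := by
  obtain ⟨h1, h2⟩ := Qf_spec hm hu
  obtain ⟨h3, h4⟩ := Qf_spec hm' hu
  have h5 := cdfF_sub hm h1 h3
  set x := Qf m u
  set y := Qf m' u
  have h6 : cdfF m x - cdfF m y = (m - m') * ((y - y ^ 2) / 4) := by
    rw [h2, ← h4]; unfold cdfF; ring
  have h7 : |(y - y ^ 2) / 4| ≤ 1 / 16 := by
    rw [abs_le]; constructor <;> nlinarith [h3.1, h3.2, sq_nonneg (y - 1 / 2)]
  rw [h6, abs_mul] at h5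
  nlinarith [mul_le_mul_of_nonneg_left h7 (abs_nonneg (m - m'))]

lemma log_lip {a b : ℝ} (ha : 7 ≤ a) (hb : 7 ≤ b) : |Real.log a - Real.log b| ≤ |a - b| / 7 := by
  have key : ∀ a b : ℝ, 7 ≤ a → 7 ≤ b → Real.log a - Real.log b ≤ |a - b| / 7 := by
    intro a b ha hb
    rw [← Real.log_div (by linarith) (by linarith)]
    refine (Real.log_le_sub_one_of_pos (by positivity)).trans ?_
    have : a / b - 1 = (a - b) / b := by field_simp
    rw [this]
    calc (a - b) / b ≤ |a - b| / b := div_le_div_of_nonneg_right (le_abs_self _) (by linarith)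
      _ ≤ |a - b| / 7 := div_le_div_of_nonneg_left (abs_nonneg _) (by norm_num) hb
  rw [abs_le]
  have h1 := key a b ha hb
  have h2 := key b a hb ha
  rw [abs_sub_comm] at h2
  constructor <;> linarith

lemma lam_lip {x y : ℝ} (hx : x ∈ Set.Icc (0 : ℝ) 1) (hy : y ∈ Set.Icc (0 : ℝ) 1) :
    |lam x - lam y| ≤ 4 / 7 * |x - y| := by
  have h1 := log_lip (a := 7 + 2 * x) (b := 7 + 2 * y) (by linarith [hx.1]) (by linarith [hy.1])
  have h2 := log_lip (a := 9 - 2 * y) (b := 9 - 2 * x) (by linarith [hy.2]) (by linarith [hx.2])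
  have e1 : 7 + 2 * x - (7 + 2 * y) = 2 * (x - y) := by ring
  have e2 : 9 - 2 * y - (9 - 2 * x) = 2 * (x - y) := by ring
  rw [e1, abs_mul, abs_two] at h1
  rw [e2, abs_mul, abs_two] at h2
  have : lam x - lam y = (Real.log (7 + 2 * x) - Real.log (7 + 2 * y)) +
      (Real.log (9 - 2 * y) - Real.log (9 - 2 * x)) := by unfold lam; ring
  rw [this]
  linarith [abs_add_le (Real.log (7 + 2 * x) - Real.log (7 + 2 * y))
    (Real.log (9 - 2 * y) - Real.log (9 - 2 * x))]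

lemma dens_one_eq {x : ℝ} (hx : x ∈ Set.Icc (0 : ℝ) 1) :
    dens 1 x = dens 0 x * Real.exp (lam x) := by
  have h1 : 0 < 7 + 2 * x := by linarith [hx.1]
  have h2 : 0 < 9 - 2 * x := by linarith [hx.2]
  unfold lam dens
  rw [Real.exp_sub, Real.exp_log h1, Real.exp_log h2]
  field_simp
  ring

lemma dens_affine (m x : ℝ) : dens m x = dens 0 x + m * (dens 1 x - dens 0 x) := by
  unfold dens; ring

lemma dens_mem {m x : ℝ} (hm : m ∈ Set.Icc (0 : ℝ) 1) (hx : x ∈ Set.Icc (0 : ℝ) 1) :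
    dens m x ∈ Set.Icc (0 : ℝ) 2 := by
  obtain ⟨a, b⟩ := hm; obtain ⟨c, d⟩ := hx
  unfold dens
  constructor <;> nlinarith [mul_nonneg a c, mul_nonneg a (sub_nonneg.2 d),
    mul_nonneg (sub_nonneg.2 b) c, mul_nonneg (sub_nonneg.2 b) (sub_nonneg.2 d)]

lemma integral_Qf {m : ℝ} (hm : m ∈ Set.Icc (0 : ℝ) 1) (ψ : ℝ → ℝ) :
    ∫ u : I, ψ (Qf m u) = ∫ x : I, ψ x * dens m x := by
  rw [integral_subtype measurableSet_Icc (fun u => ψ (Qf m u)),
    integral_subtype measurableSet_Icc (fun x => ψ x * dens m x)]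
  have himg : cdfF m '' Set.Icc 0 1 = Set.Icc 0 1 := by
    refine Set.Subset.antisymm ?_ fun u hu => ⟨Qf m u, (Qf_spec hm hu).1, (Qf_spec hm hu).2⟩
    rintro _ ⟨x, hx, rfl⟩
    exact cdfF_mem hm hx
  have hder : ∀ x ∈ Set.Icc (0 : ℝ) 1, HasDerivWithinAt (cdfF m) (dens m x) (Set.Icc 0 1) x := by
    intro x _
    have := ((hasDerivAt_id x).add ((((hasDerivAt_id x).pow 2).sub (hasDerivAt_id x)).const_mul
      ((2 * m - 1) / 8)))
    refine HasDerivAt.hasDerivWithinAt ?_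
    convert this using 1
    · ext y; simp [cdfF]
    · unfold dens; simp; ring
  have hinj : Set.InjOn (cdfF m) (Set.Icc 0 1) := fun x hx y hy h => by
    rw [← Qf_cdfF hm hx, h, Qf_cdfF hm hy]
  have := integral_image_eq_integral_abs_deriv_smul measurableSet_Icc hder hinj
    (fun u => ψ (Qf m u))
  rw [himg] at this
  rw [this]
  refine setIntegral_congr_fun measurableSet_Icc fun x hx => ?_
  simp only [Qf_cdfF hm hx, abs_of_nonneg (dens_mem hm hx).1, smul_eq_mul, mul_comm]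

lemma integral_cubic (a b c d : ℝ) :
    ∫ x : I, (a + b * (x : ℝ) + c * (x : ℝ) ^ 2 + d * (x : ℝ) ^ 3) =
      a + b / 2 + c / 3 + d / 4 := by
  rw [integral_subtype measurableSet_Icc (fun x => a + b * x + c * x ^ 2 + d * x ^ 3),
    integral_Icc_eq_integral_Ioc, ← intervalIntegral.integral_of_le zero_le_one]
  rw [intervalIntegral.integral_add, intervalIntegral.integral_add, intervalIntegral.integral_add]
  · have : ∫ x in (0 : ℝ)..1, b * x = b / 2 := by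
      rw [intervalIntegral.integral_const_mul, integral_id]; ring
    rw [this]; simp [integral_pow]; ring
  all_goals exact Continuous.intervalIntegrable (by fun_prop) _ _

lemma integral_dens (m : ℝ) : ∫ x : I, dens m x = 1 := by
  have := integral_cubic (1 - (2 * m - 1) / 8) ((2 * m - 1) / 4) 0 0
  rw [show (1 : ℝ) = 1 - (2 * m - 1) / 8 + (2 * m - 1) / 4 / 2 + 0 / 3 + 0 / 4 by ring, ← this]
  congr 1; ext x; unfold dens; ring

lemma integral_sq_dens (A t : ℝ) :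
    ∫ x : I, (A + (24 * (x : ℝ) - 23 / 2 - t)) ^ 2 * dens t x ≤ A ^ 2 + 48 := by
  have := integral_cubic ((A - 23 / 2 - t) ^ 2 * (1 - (2 * t - 1) / 8))
    (48 * (A - 23 / 2 - t) * (1 - (2 * t - 1) / 8) + (2 * t - 1) / 4 * (A - 23 / 2 - t) ^ 2)
    (576 * (1 - (2 * t - 1) / 8) + 12 * (2 * t - 1) * (A - 23 / 2 - t)) (144 * (2 * t - 1))
  have e : ∫ x : I, (A + (24 * (x : ℝ) - 23 / 2 - t)) ^ 2 * dens t x =
      A ^ 2 + 48 - (2 * t - 1) ^ 2 / 4 := by
    refine Eq.trans ?_ (this.trans (by ring))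
    congr 1; ext x; unfold dens; ring
  rw [e]
  nlinarith [sq_nonneg (2 * t - 1)]

@[fun_prop] lemma measurable_lam : Measurable lam := by unfold lam; fun_prop

@[fun_prop] lemma Measurable.Qf {X : Type*} [MeasurableSpace X] {f g : X → ℝ} (hf : Measurable f)
    (hg : Measurable g) : Measurable fun x => Qf (f x) (g x) := by
  unfold P143.Qf; fun_prop

@[fun_prop] lemma Measurable.dens {X : Type*} [MeasurableSpace X] {f g : X → ℝ}
    (hf : Measurable f) (hg : Measurable g) : Measurable fun x => dens (f x) (g x) := by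
  unfold P143.dens; fun_prop

end Vale.Agent.P143
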