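import Vale.Agent.P143.Finite

namespace Vale.Agent.P143

open MeasureTheory unitInterval Classical

variable {V : Type*} {N : Type*} {ι : Sym2 V × ℕ → N} {U : (N → I) → Sym2 V × ℕ → I}

lemma bm_xi {H : Set (Sym2 V)} (hU : Feed H ι U) (T : Finset (Sym2 V))
    (S : Finset (Sym2 V × ℕ)) :
    BM fun b => (∑ p ∈ S, (24 * (U b p : ℝ) - 23 / 2 - ind T p.1)) ^ 2 := by
  have : BM fun b => ∑ p ∈ S, (24 * (U b p : ℝ) - 23 / 2 - ind T p.1) :=
    BM.sum _ fun p _ => (((BM.const 24).mul (BM.of_mem
      (measurable_subtype_coe.comp (hU.meas p)) fun b => (U b p).2)).sub (BM.const _)).sub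
      (BM.const _)
  simpa [sq] using this.mul this

lemma lik_moments {H : Set (Sym2 V)} (hU : Feed H ι U) (T : Finset (Sym2 V))
    (S : Sym2 V × ℕ → Prop) [DecidablePred S] (J : Finset (Sym2 V × ℕ)) (hJ : ∀ p ∈ J, p.1 ∈ H) :
    ∫ b, lik J T (fun p => U b p) ∂(iidUniform N) = 1 ∧
      ∫ b, (∑ p ∈ J.filter S, (24 * (U b p : ℝ) - 23 / 2 - ind T p.1)) ^ 2 *
        lik J T (fun p => U b p) ∂(iidUniform N) ≤ 48 * (J.filter S).card := by
  induction J using Finset.induction_on with
  | empty => simp [lik]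
  | insert i J hi ih =>
    have hiH := hJ i (Finset.mem_insert_self _ _)
    have hJ' : ∀ p ∈ J, p.1 ∈ H := fun p hp => hJ p (Finset.mem_insert_of_mem hp)
    obtain ⟨ih1, ih2⟩ := ih hJ'
    have agree : ∀ b t, ∀ p ∈ J, (U (Function.update b (ι i) t) p : ℝ) = U b p :=
      fun b t p hp => by rw [hU.update_ne b hiH (hJ' p hp) (fun h => hi (h ▸ hp)) t]
    have hlik : ∀ b t, lik (insert i J) T (fun p => U (Function.update b (ι i) t) p) =
        dens (ind T i.1) t * lik J T (fun p => U b p) := by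
      intro b t
      rw [← lik_congr (agree b t), lik, Finset.prod_insert hi, hU.update_self b hiH]
      rfl
    have hsum : ∀ b t, ∑ p ∈ J.filter S,
        (24 * (U (Function.update b (ι i) t) p : ℝ) - 23 / 2 - ind T p.1) =
        ∑ p ∈ J.filter S, (24 * (U b p : ℝ) - 23 / 2 - ind T p.1) := fun b t =>
      Finset.sum_congr rfl fun p hp => by rw [agree b t p (Finset.mem_filter.1 hp).1]
    constructor
    · rw [integral_update (ι i) (hU.bm_lik _ T)]
      simp only [hlik, integral_mul_const, integral_dens, one_mul, ih1]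
    · rw [integral_update (ι i) ((bm_xi hU T _).mul (hU.bm_lik _ T)), Finset.filter_insert]
      split_ifs with hS
      · have hi' : i ∉ J.filter S := fun h => hi (Finset.mem_filter.1 h).1
        simp only [Finset.sum_insert hi', hlik, hsum, hU.update_self _ hiH]
        rw [Finset.card_insert_of_notMem hi']
        have bm2 := (bm_xi hU T (J.filter S)).mul (hU.bm_lik J T)
        have bm3 := (BM.const 48).mul (hU.bm_lik J T)
        refine (integral_mono_of_nonneg ?_ ((bm2.add bm3).integrable _) ?_).trans ?_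
        · exact Filter.Eventually.of_forall fun b => integral_nonneg fun t =>
            mul_nonneg (sq_nonneg _) (mul_nonneg (dens_mem (ind_mem _ _) t.2).1 (lik_nonneg _ _ _))
        · refine Filter.Eventually.of_forall fun b => ?_
          simp only [← mul_assoc, integral_mul_const]
          rw [← add_mul]
          refine mul_le_mul_of_nonneg_right ?_ (lik_nonneg _ _ _)
          simpa only [add_comm] using integral_sq_dens
            (∑ p ∈ J.filter S, (24 * (U b p : ℝ) - 23 / 2 - ind T p.1)) (ind T i.1)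
        · rw [integral_add (bm2.integrable _) (bm3.integrable _), integral_const_mul, ih1]
          push_cast
          linarith
      · simp only [hlik, hsum]
        simp only [mul_left_comm _ (dens _ _), integral_mul_const, integral_dens, one_mul]
        exact ih2

noncomputable def clamp (x : ℝ) : ℝ := max 0 (min 1 x)

lemma clamp_mem (x : ℝ) : clamp x ∈ Set.Icc (0 : ℝ) 1 :=
  ⟨le_max_left _ _, max_le zero_le_one (min_le_left _ _)⟩

lemma clamp_sub {d t : ℝ} (ht : t = 0 ∨ t = 1) : |clamp (3 * d - 1) - t| ≤ 9 * (d - t) ^ 2 := by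
  have h := clamp_mem (3 * d - 1)
  rcases ht with rfl | rfl
  · rcases le_or_gt (3 * d - 1) 0 with h1 | h1
    · have : clamp (3 * d - 1) = 0 := max_eq_left ((min_le_right _ _).trans h1)
      rw [this]; simp; positivity
    · rw [sub_zero, sub_zero, abs_of_nonneg h.1]; nlinarith [h.2]
  · rcases le_or_gt 1 (3 * d - 1) with h1 | h1
    · have : clamp (3 * d - 1) = 1 := by
        unfold clamp; rw [min_eq_left h1, max_eq_right zero_le_one]
      rw [this]; simp; positivity
    · rw [abs_sub_comm, abs_of_nonneg (by linarith [h.2])]; nlinarith [h.1]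

noncomputable def soft (E : Set (Sym2 V)) (y : Sym2 V × ℕ → ℝ) (p : Sym2 V × ℕ) : ℝ :=
  if p.1 ∈ E then
    clamp (3 * ((∑ k ∈ Finset.range (2 ^ p.2), (24 * y (p.1, k) - 23 / 2)) / 2 ^ p.2) - 1)
  else 0

lemma soft_mem (E : Set (Sym2 V)) (y : Sym2 V × ℕ → ℝ) (p : Sym2 V × ℕ) :
    soft E y p ∈ Set.Icc (0 : ℝ) 1 := by
  unfold soft
  split_ifs
  · exact clamp_mem _
  · simp

lemma continuous_soft (E : Set (Sym2 V)) (p : Sym2 V × ℕ) : Continuous fun y => soft E y p := by
  unfold soft clamp
  split_ifs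
  · fun_prop
  · fun_prop

lemma measurable_soft {X : Type*} [MeasurableSpace X] {E : X → Set (Sym2 V)}
    (hE : ∀ f, MeasurableSet {x | f ∈ E x}) {y : X → Sym2 V × ℕ → ℝ}
    (hy : ∀ p, Measurable fun x => y x p) (p : Sym2 V × ℕ) :
    Measurable fun x => soft (E x) (y x) p := by
  unfold soft clamp
  refine Measurable.ite (hE _) ?_ measurable_const
  have : Measurable fun x => ∑ k ∈ Finset.range (2 ^ p.2), (24 * y x (p.1, k) - 23 / 2) :=
    Finset.measurable_sum _ fun k _ => ((hy _).const_mul _).sub_const _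
  fun_prop

lemma soft_error {E : Set (Sym2 V)} {H T : Finset (Sym2 V)} (hHE : (H : Set (Sym2 V)) ⊆ E)
    (hT : T ⊆ H) (hU : Feed (H : Set (Sym2 V)) ι U) {L : ℕ} {q : Sym2 V × ℕ}
    (hq : q.1 ∈ H ∨ q.1 ∉ E) (hL : 2 ^ q.2 ≤ L) :
    ∫ b, |soft E (fun p => U b p) q - ind T q.1| * lik (H ×ˢ Finset.range L) T (fun p => U b p)
      ∂(iidUniform N) ≤ 432 / 2 ^ q.2 := by
  rcases hq with hq | hq
  swap
  · have : q.1 ∉ T := fun h => hq (hHE (hT h))
    simp only [soft, ind, hq, this, if_false, sub_self, abs_zero, zero_mul, integral_zero]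
    positivity
  obtain ⟨-, h2⟩ := lik_moments hU T (fun p => p.1 = q.1 ∧ p.2 < 2 ^ q.2)
    (H ×ˢ Finset.range L) (fun p hp => (Finset.mem_product.1 hp).1)
  have hf : (H ×ˢ Finset.range L).filter (fun p => p.1 = q.1 ∧ p.2 < 2 ^ q.2) =
      (Finset.range (2 ^ q.2)).image fun k => (q.1, k) := by
    ext p
    simp only [Finset.mem_filter, Finset.mem_product, Finset.mem_range, Finset.mem_image]
    constructor
    · rintro ⟨_, h1, h2⟩
      exact ⟨p.2, h2, Prod.ext h1.symm rfl⟩
    · rintro ⟨k, hk, rfl⟩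
      exact ⟨⟨hq, by simp only; omega⟩, rfl, hk⟩
  have hinj : Function.Injective fun k : ℕ => (q.1, k) := fun a b h => (Prod.ext_iff.1 h).2
  have bm := (bm_xi hU T ((H ×ˢ Finset.range L).filter
    (fun p => p.1 = q.1 ∧ p.2 < 2 ^ q.2))).mul (hU.bm_lik (H ×ˢ Finset.range L) T)
  rw [hf] at h2 bm
  rw [Finset.card_image_of_injective _ hinj, Finset.card_range] at h2
  simp only [Finset.sum_image hinj.injOn] at h2 bm
  have hp : (0 : ℝ) < 2 ^ q.2 := by positivity
  refine (integral_mono_of_nonneg ?_ (((BM.const (9 / (2 ^ q.2) ^ 2)).mul bm).integrable _)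
    ?_).trans ?_
  · exact Filter.Eventually.of_forall fun b => mul_nonneg (abs_nonneg _) (lik_nonneg _ _ _)
  · refine Filter.Eventually.of_forall fun b => ?_
    simp only [← mul_assoc]
    refine mul_le_mul_of_nonneg_right ?_ (lik_nonneg _ _ _)
    rw [soft, if_pos (hHE hq)]
    refine (clamp_sub (by unfold ind; split_ifs <;> simp)).trans (le_of_eq ?_)
    rw [Finset.sum_sub_distrib (fun k => 24 * (U b (q.1, k) : ℝ) - 23 / 2)]
    simp only [Finset.sum_const, Finset.card_range, nsmul_eq_mul]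
    generalize ∑ k ∈ Finset.range (2 ^ q.2), (24 * (U b (q.1, k) : ℝ) - 23 / 2) = A
    push_cast
    field_simp
  · rw [integral_const_mul]
    refine (mul_le_mul_of_nonneg_left h2 (by positivity)).trans (le_of_eq ?_)
    push_cast
    field_simp
    norm_num

theorem finite_bound [Countable V] {W : Set V} {H : Finset (Sym2 V)}
    (hH : ∀ x y, s(x, y) ∈ H → x ≠ y ∧ x ∈ W) (hconn : ∀ x ∈ W, ∀ y ∈ W, Rch H x y)
    {K : Type*} [LinearOrder K] {key : Sym2 V → K} (hkey : Set.InjOn key H)
    (hU : Feed (H : Set (Sym2 V)) ι U) {E : Set (Sym2 V)} (hHE : (H : Set (Sym2 V)) ⊆ E)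
    (S : Finset (Sym2 V × ℕ)) (hS : ∀ q ∈ S, q.1 ∈ H ∨ q.1 ∉ E)
    {g : (Sym2 V × ℕ → ℝ) → ℝ} (hg : BM g)
    (hdep : ∀ y y', (∀ q ∈ S, soft E y q = soft E y' q) → g y = g y')
    {c : Finset (Sym2 V) → ℝ} {w : ℝ} (hw : 0 ≤ w)
    (hc : ∀ y, ∀ T ⊆ H, |g y - c T| ≤ w * ∑ q ∈ S, |soft E y q - ind T q.1|) :
    |∫ b, g (Ysol H (fun f g => key f < key g) (U b)) ∂(iidUniform N) -
      (∑ T ∈ trees W H, c T) / (trees W H).card| ≤ w * ∑ q ∈ S, 432 / 2 ^ q.2 := by
  obtain ⟨L, hL⟩ : ∃ L, ∀ q ∈ S, 2 ^ q.2 ≤ L :=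
    ⟨S.sup fun q => 2 ^ q.2, fun q hq => Finset.le_sup (f := fun q => 2 ^ q.2) hq⟩
  set J := H ×ˢ Finset.range L with hJ
  have hJH : ∀ p ∈ J, p.1 ∈ H := fun p hp => (Finset.mem_product.1 hp).1
  have law := law_identity hH hconn hkey hU J hJH (by
      intro p hp f hf j hj
      rw [Finset.mem_coe, Finset.mem_product, Finset.mem_range] at hp ⊢
      exact ⟨hf, by rcases hj with h | h <;> omega⟩) g hg (by
      intro y y' h
      refine hdep _ _ fun q hq => ?_
      unfold soft
      split_ifs with hE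
      · congr 4
        refine Finset.sum_congr rfl fun k hk => ?_
        rw [h (q.1, k) (Finset.mem_product.2 ⟨(hS q hq).resolve_right (not_not.2 hE),
          Finset.mem_range.2 ((Finset.mem_range.1 hk).trans_le (hL q hq))⟩)]
      · rfl)
  have hcard : (0 : ℝ) < (trees W H).card := by exact_mod_cast (trees_nonempty hconn).card_pos
  have bmg := hg.comp hU.meas_coe
  have bms : ∀ T q, BM fun b => |soft E (fun p => (U b p : ℝ)) q - ind T q.1| *
      lik J T (fun p => U b p) := fun T q =>
    ((BM.of_mem (measurable_soft (E := fun _ => E) (fun _ => MeasurableSet.const _)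
      (fun p => measurable_subtype_coe.comp (hU.meas p)) q) fun b => soft_mem _ _ _).sub
      (BM.const _)).abs.mul (hU.bm_lik J T)
  have each : ∀ T ∈ trees W H,
      |∫ b, g (fun p => U b p) * lik J T (fun p => U b p) ∂(iidUniform N) - c T| ≤
        w * ∑ q ∈ S, 432 / 2 ^ q.2 := by
    intro T hT
    have hTH := (mem_trees.1 hT).1
    have h1 := (lik_moments hU T (fun _ => True) J hJH).1
    have e1 : ∫ b, g (fun p => U b p) * lik J T (fun p => U b p) ∂(iidUniform N) - c T =
        ∫ b, (g (fun p => U b p) - c T) * lik J T (fun p => U b p) ∂(iidUniform N) := by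
      simp only [sub_mul]
      rw [integral_sub ((bmg.mul (hU.bm_lik J T)).integrable _)
        (((BM.const _).mul (hU.bm_lik J T)).integrable _), integral_const_mul, h1, mul_one]
    rw [e1]
    refine abs_integral_le_integral_abs.trans ((integral_mono_of_nonneg
      (Filter.Eventually.of_forall fun b => abs_nonneg _)
      (((BM.const w).mul (BM.sum S fun q _ => bms T q)).integrable _)
      (Filter.Eventually.of_forall fun b => ?_)).trans ?_)
    · simp only
      rw [abs_mul, abs_of_nonneg (lik_nonneg _ _ _), ← Finset.sum_mul, ← mul_assoc]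
      exact mul_le_mul_of_nonneg_right (hc _ T hTH) (lik_nonneg _ _ _)
    · rw [integral_const_mul, integral_finsetSum _ fun q _ => (bms T q).integrable _]
      exact mul_le_mul_of_nonneg_left
        (Finset.sum_le_sum fun q hq => soft_error hHE hTH hU (hS q hq) (hL q hq)) hw
  simp only [Finset.mul_sum] at law
  rw [integral_finsetSum _ fun T _ => (bmg.mul (hU.bm_lik J T)).integrable _] at law
  rw [eq_div_of_mul_eq hcard.ne' ((mul_comm _ _).trans law), ← sub_div, abs_div,
    abs_of_pos hcard, div_le_iff₀ hcard, ← Finset.sum_sub_distrib]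
  refine (Finset.abs_sum_le_sum_abs _ _).trans ((Finset.sum_le_sum each).trans (le_of_eq ?_))
  rw [Finset.sum_const, nsmul_eq_mul, mul_comm]

end Vale.Agent.P143
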