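import Mathlib

namespace Vale.Agent.P143

open MeasureTheory ProbabilityTheory Filter Topology

variable {V : Type*}

/-- The edge sets of the spanning trees of a subgraph `H`: acyclic sets of edges of `H` that
connect every two vertices of `H`. -/
def spanningTrees {G : SimpleGraph V} (H : G.Subgraph) : Set (Set (Sym2 V)) :=
  {S | S ⊆ H.edgeSet ∧ (SimpleGraph.fromEdgeSet S).IsAcyclic ∧
    ∀ x ∈ H.verts, ∀ y ∈ H.verts, (SimpleGraph.fromEdgeSet S).Reachable x y}

/-- The uniform spanning tree of `H`, as a law on edge sets. -/
noncomputable def ust {G : SimpleGraph V} (H : G.Subgraph) : Measure (Set (Sym2 V)) :=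
  uniformOn (spanningTrees H)

/-- An increasing sequence of finite connected subgraphs with union `G`. -/
def IsExhaustion {G : SimpleGraph V} (H : ℕ → G.Subgraph) : Prop :=
  Monotone H ∧ (∀ n, (H n).verts.Finite ∧ (H n).Connected) ∧ ⨆ n, H n = ⊤

/-- The cylinder event: all edges of `A` are present and all edges of `B` are absent. -/
def cyl (A B : Finset (Sym2 V)) : Set (Set (Sym2 V)) :=
  {S | (∀ e ∈ A, e ∈ S) ∧ ∀ e ∈ B, e ∉ S}

/-- `μ` is the free uniform spanning forest of `G`: a probability measure on edge sets that is the
weak limit (all finite cylinder probabilities converge) of the uniform spanning trees along every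
exhaustion of `G`, and an exhaustion exists. -/
def IsFUSF (G : SimpleGraph V) (μ : Measure (Set (Sym2 V))) : Prop :=
  IsProbabilityMeasure μ ∧ (∃ H : ℕ → G.Subgraph, IsExhaustion H) ∧
    ∀ H : ℕ → G.Subgraph, IsExhaustion H → ∀ A B : Finset (Sym2 V),
      Tendsto (fun n => ust (H n) (cyl A B)) atTop (𝓝 (μ (cyl A B)))

/-- The law of i.i.d. uniform `[0,1]` labels on the vertices. -/
noncomputable def iidUniform (V : Type*) : Measure (V → unitInterval) :=
  Measure.infinitePi (fun _ : V => (volume : Measure unitInterval))

end Vale.Agent.P143
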