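import Mathlib

namespace Vale.Agent.P143

open Filter Topology

variable {V : Type*}

/-- product of the gradients along an edge -/
def bil (φ ψ : V → ℝ) : Sym2 V → ℝ :=
  Sym2.lift ⟨fun x y => (φ x - φ y) * (ψ x - ψ y), fun x y => by ring⟩

@[simp] lemma bil_mk (φ ψ : V → ℝ) (x y : V) :
    bil φ ψ s(x, y) = (φ x - φ y) * (ψ x - ψ y) := rfl

lemma bil_self_nonneg (φ : V → ℝ) (f : Sym2 V) : 0 ≤ bil φ φ f := by
  induction f using Sym2.ind with
  | _ x y => simp [mul_self_nonneg]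

noncomputable def energy (H : Finset (Sym2 V)) (c : Sym2 V → ℝ) (φ : V → ℝ) : ℝ :=
  ∑ f ∈ H, c f * bil φ φ f

noncomputable def cond (H : Finset (Sym2 V)) (c : Sym2 V → ℝ) (e : Sym2 V) : ℝ :=
  ⨅ φ : {φ : V → ℝ // bil φ φ e = 1}, energy H c φ.1

noncomputable def mfin (H : Finset (Sym2 V)) (l : Sym2 V → ℝ) (e : Sym2 V) : ℝ :=
  Real.exp (l e) / cond H (fun f => Real.exp (l f)) e

open Classical in
noncomputable def marg (E : Set (Sym2 V)) (l : Sym2 V → ℝ) (e : Sym2 V) : ℝ :=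
  ⨅ H : Finset (Sym2 V), if e ∈ H ∧ (H : Set (Sym2 V)) ⊆ E ∧ ¬ e.IsDiag then mfin H l e else 1

lemma energy_nonneg {H : Finset (Sym2 V)} {c : Sym2 V → ℝ} (hc : ∀ f, 0 ≤ c f) (φ : V → ℝ) :
    0 ≤ energy H c φ :=
  Finset.sum_nonneg fun f _ => mul_nonneg (hc f) (bil_self_nonneg φ f)

lemma nonempty_test {e : Sym2 V} (he : ¬ e.IsDiag) : Nonempty {φ : V → ℝ // bil φ φ e = 1} := by
  classical
  induction e using Sym2.ind with
  | _ x y =>
    have hxy : x ≠ y := by simpa using he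
    exact ⟨⟨fun v => if v = x then 1 else 0, by simp [hxy.symm]⟩⟩

lemma cond_le {H : Finset (Sym2 V)} {c : Sym2 V → ℝ} (hc : ∀ f, 0 ≤ c f) {e : Sym2 V}
    {φ : V → ℝ} (hφ : bil φ φ e = 1) : cond H c e ≤ energy H c φ :=
  ciInf_le (f := fun φ : {φ : V → ℝ // bil φ φ e = 1} => energy H c φ.1)
    ⟨0, by rintro _ ⟨φ, rfl⟩; exact energy_nonneg hc _⟩ ⟨φ, hφ⟩

lemma le_cond {H : Finset (Sym2 V)} {c : Sym2 V → ℝ} {e : Sym2 V} (he : ¬ e.IsDiag) {a : ℝ}
    (h : ∀ φ : V → ℝ, bil φ φ e = 1 → a ≤ energy H c φ) : a ≤ cond H c e := by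
  have := nonempty_test he
  exact le_ciInf fun φ => h φ.1 φ.2

lemma self_le_cond {H : Finset (Sym2 V)} {c : Sym2 V → ℝ} (hc : ∀ f, 0 ≤ c f) {e : Sym2 V}
    (he : ¬ e.IsDiag) (heH : e ∈ H) : c e ≤ cond H c e := by
  refine le_cond he fun φ hφ => ?_
  have := Finset.single_le_sum (f := fun f => c f * bil φ φ f)
    (fun f _ => mul_nonneg (hc f) (bil_self_nonneg φ f)) heH
  simpa [hφ, energy] using this

lemma cond_mono {H H' : Finset (Sym2 V)} (hH : H ⊆ H') {c : Sym2 V → ℝ} (hc : ∀ f, 0 ≤ c f)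
    {e : Sym2 V} (he : ¬ e.IsDiag) : cond H c e ≤ cond H' c e := by
  refine le_cond he fun φ hφ => (cond_le hc hφ).trans ?_
  exact Finset.sum_le_sum_of_subset_of_nonneg hH
    fun f _ _ => mul_nonneg (hc f) (bil_self_nonneg φ f)

lemma cond_perturb {H0 H : Finset (Sym2 V)} (hH : H0 ⊆ H) {c c' : Sym2 V → ℝ}
    (hc : ∀ f, 0 ≤ c f) (hc' : ∀ f, 0 ≤ c' f) {a L : ℝ} (ha : 1 ≤ a) (hL : 1 ≤ L)
    (h0 : ∀ f ∈ H0, c' f ≤ a * c f) (h1 : ∀ f ∈ H, f ∉ H0 → c' f ≤ L * c f)
    {e : Sym2 V} (he : ¬ e.IsDiag) :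
    cond H c' e ≤ a * (L * cond H c e - (L - 1) * cond H0 c e) := by
  classical
  have ha0 : 0 < a := by linarith
  have hL0 : 0 < L := by linarith
  have key : (cond H c' e / a + (L - 1) * cond H0 c e) / L ≤ cond H c e := by
    refine le_cond he fun φ hφ => ?_
    have e1 := cond_le (H := H) hc' hφ
    have e2 := cond_le (H := H0) hc hφ
    have s1 : energy H c φ = energy (H \ H0) c φ + energy H0 c φ :=
      (Finset.sum_sdiff hH).symm
    have s2 : energy H c' φ = energy (H \ H0) c' φ + energy H0 c' φ :=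
      (Finset.sum_sdiff hH).symm
    have b0 : energy H0 c' φ ≤ a * energy H0 c φ := by
      unfold energy
      rw [Finset.mul_sum]
      refine Finset.sum_le_sum fun f hf => ?_
      rw [← mul_assoc]
      exact mul_le_mul_of_nonneg_right (h0 f hf) (bil_self_nonneg φ f)
    have b1 : energy (H \ H0) c' φ ≤ L * energy (H \ H0) c φ := by
      unfold energy
      rw [Finset.mul_sum]
      refine Finset.sum_le_sum fun f hf => ?_
      rw [← mul_assoc]
      rw [Finset.mem_sdiff] at hf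
      exact mul_le_mul_of_nonneg_right (h1 f hf.1 hf.2) (bil_self_nonneg φ f)
    have n1 := energy_nonneg (H := H \ H0) hc φ
    have b2 : L * energy (H \ H0) c φ ≤ a * (L * energy (H \ H0) c φ) :=
      le_mul_of_one_le_left (mul_nonneg hL0.le n1) ha
    have b3 : cond H c' e / a ≤ L * energy (H \ H0) c φ + energy H0 c φ := by
      rw [div_le_iff₀ ha0]; nlinarith
    rw [div_le_iff₀ hL0, s1]
    nlinarith [mul_le_mul_of_nonneg_left e2 (sub_nonneg.2 hL)]
  rw [div_le_iff₀ hL0] at key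
  have : cond H c' e / a ≤ L * cond H c e - (L - 1) * cond H0 c e := by linarith
  rwa [div_le_iff₀ ha0, mul_comm] at this

lemma cond_exp_pos {H : Finset (Sym2 V)} (l : Sym2 V → ℝ) {e : Sym2 V} (he : ¬ e.IsDiag)
    (heH : e ∈ H) : 0 < cond H (fun f => Real.exp (l f)) e :=
  (Real.exp_pos (l e)).trans_le
    (self_le_cond (c := fun f => Real.exp (l f)) (fun _ => (Real.exp_pos _).le) he heH)

lemma mfin_pos {H : Finset (Sym2 V)} (l : Sym2 V → ℝ) {e : Sym2 V} (he : ¬ e.IsDiag)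
    (heH : e ∈ H) : 0 < mfin H l e :=
  div_pos (Real.exp_pos _) (cond_exp_pos l he heH)

lemma mfin_le_one {H : Finset (Sym2 V)} (l : Sym2 V → ℝ) {e : Sym2 V} (he : ¬ e.IsDiag)
    (heH : e ∈ H) : mfin H l e ≤ 1 :=
  (div_le_one (cond_exp_pos l he heH)).2
    (self_le_cond (c := fun f => Real.exp (l f)) (fun _ => (Real.exp_pos _).le) he heH)

lemma mfin_anti {H H' : Finset (Sym2 V)} (hH : H ⊆ H') (l : Sym2 V → ℝ) {e : Sym2 V}
    (he : ¬ e.IsDiag) (heH : e ∈ H) : mfin H' l e ≤ mfin H l e :=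
  div_le_div_of_nonneg_left (Real.exp_pos _).le (cond_exp_pos l he heH)
    (cond_mono hH (fun _ => (Real.exp_pos _).le) he)

lemma exp_le_of_abs {x y s : ℝ} (h : |x - y| ≤ s) : Real.exp x ≤ Real.exp s * Real.exp y := by
  rw [← Real.exp_add]
  exact Real.exp_le_exp.2 (by linarith [(abs_le.1 h).2])

/-- the main perturbation estimate -/
lemma mfin_perturb {H0 H : Finset (Sym2 V)} (hH : H0 ⊆ H) {l l' : Sym2 V → ℝ} {s B M η : ℝ}
    (hs : 0 ≤ s) (hB : 0 ≤ B) (hη : 0 ≤ η)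
    (h0 : ∀ f ∈ H0, |l' f - l f| ≤ s) (h1 : ∀ f ∈ H, f ∉ H0 → |l' f - l f| ≤ B)
    {e : Sym2 V} (he : ¬ e.IsDiag) (heH : e ∈ H0) (hM : M ≤ mfin H l e)
    (hM0 : mfin H0 l e ≤ M + η) : M - Real.exp B * η - 2 * s ≤ mfin H l' e := by
  have hpos := mfin_pos l' he (hH heH)
  have hL : 1 ≤ Real.exp B := Real.one_le_exp hB
  have ha : 1 ≤ Real.exp s := Real.one_le_exp hs
  rcases le_or_gt (M - Real.exp B * η) 0 with hneg | hMp
  · linarith
  have hLη : 0 ≤ Real.exp B * η := by positivity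
  have hM' : 0 < M := by linarith
  have hM1 : M ≤ 1 := hM.trans (mfin_le_one l he (hH heH))
  have p := cond_perturb (c := fun f => Real.exp (l f)) (c' := fun f => Real.exp (l' f)) hH
    (fun f => (Real.exp_pos _).le) (fun f => (Real.exp_pos _).le) ha hL
    (fun f hf => exp_le_of_abs (h0 f hf)) (fun f hf hf' => exp_le_of_abs (h1 f hf hf')) he
  have c1 := cond_exp_pos l he (hH heH)
  have c0 := cond_exp_pos l he heH
  have c2 := cond_exp_pos l' he (hH heH)
  unfold mfin at hM hM0 ⊢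
  set C1 := cond H (fun f => Real.exp (l f)) e
  set C0 := cond H0 (fun f => Real.exp (l f)) e
  set C2 := cond H (fun f => Real.exp (l' f)) e
  set L := Real.exp B
  set a := Real.exp s
  have hx : Real.exp (l e) ≤ a * Real.exp (l' e) :=
    exp_le_of_abs (by rw [abs_sub_comm]; exact h0 e heH)
  have hx0 := Real.exp_pos (l e)
  set x := Real.exp (l e)
  set x' := Real.exp (l' e)
  rw [le_div_iff₀ c1] at hM
  rw [div_le_iff₀ c0] at hM0
  have hMη : 0 < M + η := by linarith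
  -- C1 ≤ x / M, C0 ≥ x / (M + η)
  have q1 : C1 ≤ x / M := by rw [le_div_iff₀ hM']; linarith
  have q0 : x / (M + η) ≤ C0 := by rw [div_le_iff₀ hMη]; linarith
  have q2 : L * C1 - (L - 1) * C0 ≤ x * (M + L * η) / (M * M) := by
    have t1 : L * C1 ≤ L * (x / M) := mul_le_mul_of_nonneg_left q1 (by linarith)
    have t0 : (L - 1) * (x / (M + η)) ≤ (L - 1) * C0 := mul_le_mul_of_nonneg_left q0 (by linarith)
    have t2 : L * (x / M) - (L - 1) * (x / (M + η)) = x * (M + L * η) / (M * (M + η)) := by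
      field_simp; ring
    have t3 : x * (M + L * η) / (M * (M + η)) ≤ x * (M + L * η) / (M * M) :=
      div_le_div_of_nonneg_left (by positivity) (by positivity) (by nlinarith)
    linarith
  have q3 : C2 ≤ a * (x * (M + L * η) / (M * M)) :=
    p.trans (mul_le_mul_of_nonneg_left q2 (by linarith))
  have q4 : (M - L * η) * C2 ≤ a * x := by
    have t1 : (M - L * η) * C2 ≤ (M - L * η) * (a * (x * (M + L * η) / (M * M))) :=
      mul_le_mul_of_nonneg_left q3 hMp.le
    have t2 : (M - L * η) * (a * (x * (M + L * η) / (M * M)))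
        = a * x * ((M * M - (L * η) * (L * η)) / (M * M)) := by field_simp; ring
    have t3 : (M * M - (L * η) * (L * η)) / (M * M) ≤ 1 := by
      rw [div_le_one (by positivity)]; nlinarith
    have t4 : a * x * ((M * M - (L * η) * (L * η)) / (M * M)) ≤ a * x :=
      mul_le_of_le_one_right (by positivity) t3
    linarith
  have q5 : (M - L * η) * C2 ≤ a * a * x' := by nlinarith
  have q6 : (1 - 2 * s) * (a * a) ≤ 1 := by
    have : a * a = Real.exp (2 * s) := by rw [← Real.exp_add]; ring_nf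
    rw [this]
    have h1 := Real.add_one_le_exp (-(2 * s))
    have h2 : Real.exp (-(2 * s)) * Real.exp (2 * s) = 1 := by rw [← Real.exp_add]; simp
    nlinarith [Real.exp_pos (2 * s)]
  rw [le_div_iff₀ c2]
  have hx' : 0 < x' := Real.exp_pos _
  rcases le_or_gt (1 - 2 * s) 0 with h | h
  · nlinarith
  · have t1 : (M - L * η - 2 * s) ≤ (1 - 2 * s) * (M - L * η) := by nlinarith
    calc (M - L * η - 2 * s) * C2 ≤ (1 - 2 * s) * (M - L * η) * C2 :=
          mul_le_mul_of_nonneg_right t1 c2.le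
      _ = (1 - 2 * s) * ((M - L * η) * C2) := by ring
      _ ≤ (1 - 2 * s) * (a * a * x') := mul_le_mul_of_nonneg_left q5 h.le
      _ = ((1 - 2 * s) * (a * a)) * x' := by ring
      _ ≤ x' := mul_le_of_le_one_left hx'.le q6

lemma mfin_lip {H : Finset (Sym2 V)} {l l' : Sym2 V → ℝ} {s : ℝ} (hs : 0 ≤ s)
    (h0 : ∀ f ∈ H, |l' f - l f| ≤ s) {e : Sym2 V} (he : ¬ e.IsDiag) (heH : e ∈ H) :
    mfin H l e - 2 * s ≤ mfin H l' e := by
  have := mfin_perturb (B := 0) (η := 0) (M := mfin H l e) (Finset.Subset.refl H) hs le_rfl le_rfl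
    h0 (fun f hf hf' => (hf' hf).elim) he heH le_rfl (by simp)
  simpa using this

section marg
open Classical

lemma marg_term_nonneg (E : Set (Sym2 V)) (l : Sym2 V → ℝ) (e : Sym2 V) (H : Finset (Sym2 V)) :
    0 ≤ (if e ∈ H ∧ (H : Set (Sym2 V)) ⊆ E ∧ ¬ e.IsDiag then mfin H l e else 1) := by
  split_ifs with h
  · exact (mfin_pos l h.2.2 h.1).le
  · exact zero_le_one

lemma marg_bdd (E : Set (Sym2 V)) (l : Sym2 V → ℝ) (e : Sym2 V) :
    BddBelow (Set.range fun H : Finset (Sym2 V) =>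
      if e ∈ H ∧ (H : Set (Sym2 V)) ⊆ E ∧ ¬ e.IsDiag then mfin H l e else 1) :=
  ⟨0, by rintro _ ⟨H, rfl⟩; exact marg_term_nonneg E l e H⟩

lemma marg_nonneg (E : Set (Sym2 V)) (l : Sym2 V → ℝ) (e : Sym2 V) : 0 ≤ marg E l e :=
  le_ciInf (marg_term_nonneg E l e)

lemma marg_le_one (E : Set (Sym2 V)) (l : Sym2 V → ℝ) (e : Sym2 V) : marg E l e ≤ 1 := by
  have := ciInf_le (marg_bdd E l e) ∅
  simpa [marg] using this

lemma marg_le {E : Set (Sym2 V)} (l : Sym2 V → ℝ) {e : Sym2 V} {H : Finset (Sym2 V)}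
    (heH : e ∈ H) (hH : (H : Set (Sym2 V)) ⊆ E) (he : ¬ e.IsDiag) : marg E l e ≤ mfin H l e := by
  have := ciInf_le (marg_bdd E l e) H
  rwa [if_pos ⟨heH, hH, he⟩] at this

lemma le_marg {E : Set (Sym2 V)} {l : Sym2 V → ℝ} {e : Sym2 V} {a : ℝ} (ha : a ≤ 1)
    (h : ∀ H : Finset (Sym2 V), e ∈ H → (H : Set (Sym2 V)) ⊆ E → ¬ e.IsDiag → a ≤ mfin H l e) :
    a ≤ marg E l e := by
  refine le_ciInf fun H => ?_
  split_ifs with hH
  · exact h H hH.1 hH.2.1 hH.2.2
  · exact ha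

lemma marg_eq_one {E : Set (Sym2 V)} (l : Sym2 V → ℝ) {e : Sym2 V} (h : e ∉ E ∨ e.IsDiag) :
    marg E l e = 1 := by
  refine le_antisymm (marg_le_one _ _ _) (le_marg le_rfl fun H h1 h2 h3 => ?_)
  rcases h with h | h
  · exact (h (h2 h1)).elim
  · exact (h3 h).elim

lemma marg_coe (H : Finset (Sym2 V)) (l : Sym2 V → ℝ) {e : Sym2 V} (heH : e ∈ H)
    (he : ¬ e.IsDiag) : marg (H : Set (Sym2 V)) l e = mfin H l e :=
  le_antisymm (marg_le l heH subset_rfl he)
    (le_marg (mfin_le_one l he heH) fun _ h1 h2 _ => mfin_anti (by exact_mod_cast h2) l he h1)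

lemma marg_lip_aux {E : Set (Sym2 V)} {l l' : Sym2 V → ℝ} {s : ℝ} (hs : 0 ≤ s)
    (h : ∀ f ∈ E, |l' f - l f| ≤ s) (e : Sym2 V) : marg E l e - 2 * s ≤ marg E l' e := by
  refine le_marg (by linarith [marg_le_one E l e]) fun H h1 h2 h3 => ?_
  have := mfin_lip hs (fun f hf => h f (h2 hf)) h3 h1
  linarith [marg_le l h1 h2 h3]

lemma marg_lip {E : Set (Sym2 V)} {l l' : Sym2 V → ℝ} {s : ℝ} (hs : 0 ≤ s)
    (h : ∀ f ∈ E, |l' f - l f| ≤ s) (e : Sym2 V) : |marg E l' e - marg E l e| ≤ 2 * s := by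
  have h1 := marg_lip_aux hs h e
  have h2 := marg_lip_aux (l := l') (l' := l) hs (fun f hf => by rw [abs_sub_comm]; exact h f hf) e
  rw [abs_le]; constructor <;> linarith

lemma marg_congr {E : Set (Sym2 V)} {l l' : Sym2 V → ℝ} (h : ∀ f ∈ E, l' f = l f) (e : Sym2 V) :
    marg E l' e = marg E l e := by
  have := marg_lip (E := E) (l := l) (l' := l') (s := 0) le_rfl (fun f hf => by rw [h f hf]; simp) e
  rw [mul_zero, abs_nonpos_iff, sub_eq_zero] at this
  exact this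

lemma exists_mfin_lt {E : Set (Sym2 V)} (l : Sym2 V → ℝ) {e : Sym2 V} (heE : e ∈ E)
    (he : ¬ e.IsDiag) {η : ℝ} (hη : 0 < η) :
    ∃ H : Finset (Sym2 V), e ∈ H ∧ (H : Set (Sym2 V)) ⊆ E ∧ mfin H l e ≤ marg E l e + η := by
  by_contra hcon
  push Not at hcon
  have h1 : mfin {e} l e ≤ 1 := mfin_le_one l he (Finset.mem_singleton_self e)
  have h2 := hcon {e} (Finset.mem_singleton_self e) (by simpa using heE)
  have : marg E l e + η ≤ marg E l e :=
    le_marg (by linarith) fun H a b _ => (hcon H a b).le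
  linarith

/-- local continuity of the marginal -/
lemma marg_tendsto {E : Set (Sym2 V)} {En : ℕ → Set (Sym2 V)} (hsub : ∀ n, En n ⊆ E)
    (hex : ∀ f ∈ E, ∀ᶠ n in atTop, f ∈ En n) {l : Sym2 V → ℝ} {ln : ℕ → Sym2 V → ℝ} {B : ℝ}
    (hB : ∀ n, ∀ f ∈ E, |ln n f - l f| ≤ B)
    (hl : ∀ f ∈ E, Tendsto (fun n => ln n f) atTop (𝓝 (l f))) (e : Sym2 V) :
    Tendsto (fun n => marg (En n) (ln n) e) atTop (𝓝 (marg E l e)) := by
  by_cases h : e ∉ E ∨ e.IsDiag
  · rw [marg_eq_one l h]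
    refine tendsto_const_nhds.congr fun n => (marg_eq_one _ ?_).symm
    exact h.imp_left fun h h' => h (hsub n h')
  push Not at h
  obtain ⟨heE, he⟩ := h
  have hB0 : 0 ≤ B := (abs_nonneg _).trans (hB 0 e heE)
  rw [Metric.tendsto_nhds]
  intro δ hδ
  have hL := Real.exp_pos B
  have hL1 := Real.one_le_exp hB0
  have hη : 0 < δ / (4 * Real.exp B) := by positivity
  obtain ⟨H0, h1, h2, h3⟩ := exists_mfin_lt l heE he hη
  have ev1 : ∀ᶠ n in atTop, ∀ f ∈ H0, f ∈ En n :=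
    (eventually_all_finset H0).2 fun f hf => hex f (h2 hf)
  have ev2 : ∀ᶠ n in atTop, ∀ f ∈ H0, |ln n f - l f| ≤ δ / 4 := by
    refine (eventually_all_finset H0).2 fun f hf => ?_
    filter_upwards [Metric.tendsto_nhds.1 (hl f (h2 hf)) (δ / 4) (by positivity)] with n hn
    exact (Real.dist_eq _ _ ▸ hn).le
  filter_upwards [ev1, ev2] with n e1 e2
  have hη1 : Real.exp B * (δ / (4 * Real.exp B)) = δ / 4 := by field_simp
  have hη2 : δ / (4 * Real.exp B) ≤ δ / 4 :=
    div_le_div_of_nonneg_left hδ.le (by norm_num) (by linarith)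
  have up : marg (En n) (ln n) e ≤ marg E l e + 3 * δ / 4 := by
    have a1 := marg_le (ln n) h1 (fun f hf => e1 f hf) he
    have a2 := mfin_lip (l := ln n) (l' := l) (s := δ / 4) (by positivity)
      (fun f hf => by rw [abs_sub_comm]; exact e2 f hf) he h1
    linarith
  have lo : marg E l e - 3 * δ / 4 ≤ marg (En n) (ln n) e := by
    refine le_marg (by linarith [marg_le_one E l e]) fun H a1 a2 _ => ?_
    have hU : ((H ∪ H0 : Finset (Sym2 V)) : Set (Sym2 V)) ⊆ E := by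
      rw [Finset.coe_union]; exact Set.union_subset (a2.trans (hsub n)) h2
    have b1 := mfin_perturb (H0 := H0) (H := H ∪ H0) Finset.subset_union_right (l := l)
      (l' := ln n) (s := δ / 4) (B := B) (M := marg E l e) (by positivity) hB0 hη.le e2
      (fun f hf _ => hB n f (hU hf)) he h1
      (marg_le l (Finset.mem_union_right _ h1) hU he) h3
    have b2 := mfin_anti (Finset.subset_union_left (s₁ := H) (s₂ := H0)) (ln n) he a1
    linarith
  rw [Real.dist_eq, abs_lt]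
  constructor <;> linarith

lemma continuous_mfin (H : Finset (Sym2 V)) {e : Sym2 V} (heH : e ∈ H) (he : ¬ e.IsDiag) :
    Continuous fun l : Sym2 V → ℝ => mfin H l e := by
  rw [continuous_iff_continuousAt]
  intro l0
  rw [ContinuousAt, Metric.tendsto_nhds]
  intro δ hδ
  have ev2 : ∀ᶠ l in 𝓝 l0, ∀ f ∈ H, |l f - l0 f| ≤ δ / 4 := by
    refine (eventually_all_finset H).2 fun f _ => ?_
    filter_upwards [Metric.tendsto_nhds.1 ((continuous_apply f).tendsto l0) (δ / 4)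
      (by positivity)] with n hn
    exact (Real.dist_eq _ _ ▸ hn).le
  filter_upwards [ev2] with l hl
  have a1 := mfin_lip (s := δ / 4) (by positivity) hl he heH
  have a2 := mfin_lip (l := l) (l' := l0) (s := δ / 4) (by positivity)
      (fun f hf => by rw [abs_sub_comm]; exact hl f hf) he heH
  rw [Real.dist_eq, abs_lt]
  constructor <;> linarith

lemma measurable_marg [Countable V] {X : Type*} [MeasurableSpace X] {E : X → Set (Sym2 V)}
    (hE : ∀ f, MeasurableSet {x | f ∈ E x}) {l : X → Sym2 V → ℝ}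
    (hl : ∀ f, Measurable fun x => l x f) (e : Sym2 V) :
    Measurable fun x => marg (E x) (l x) e := by
  refine Measurable.iInf fun H => ?_
  by_cases h : e ∈ H ∧ ¬ e.IsDiag
  · refine Measurable.ite ?_ ?_ measurable_const
    · have : {x | e ∈ H ∧ (H : Set (Sym2 V)) ⊆ E x ∧ ¬ e.IsDiag} = ⋂ f ∈ H, {x | f ∈ E x} := by
        ext x; simp [h.1, h.2, Set.subset_def]
      rw [this]
      exact Finset.measurableSet_biInter H fun f _ => hE f
    · exact (continuous_mfin H h.1 h.2).measurable.comp (measurable_pi_iff.2 hl)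
  · have : ∀ x, ¬ (e ∈ H ∧ (H : Set (Sym2 V)) ⊆ E x ∧ ¬ e.IsDiag) := fun x hx => h ⟨hx.1, hx.2.2⟩
    simp only [this, if_false]
    exact measurable_const

variable {W : Type*}

lemma bil_map (σ : V → W) (φ ψ : W → ℝ) (f : Sym2 V) :
    bil φ ψ (f.map σ) = bil (φ ∘ σ) (ψ ∘ σ) f := by
  induction f using Sym2.ind with
  | _ x y => rfl

lemma map_symm_map (σ : V ≃ W) (f : Sym2 V) : (f.map σ).map σ.symm = f := by
  rw [Sym2.map_map]; simp

lemma map_map_symm (σ : V ≃ W) (f : Sym2 W) : (f.map σ.symm).map σ = f := by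
  rw [Sym2.map_map]; simp

lemma cond_map_le {σ : V → W} (hσ : Function.Injective σ) (H : Finset (Sym2 V))
    {c : Sym2 W → ℝ} (hc : ∀ f, 0 ≤ c f) {e : Sym2 V} (he : ¬ e.IsDiag) :
    cond H (fun f => c (f.map σ)) e ≤ cond (H.image (Sym2.map σ)) c (e.map σ) := by
  refine le_cond (by rwa [Sym2.isDiag_map hσ]) fun φ hφ => ?_
  refine (cond_le (fun _ => hc _) (φ := φ ∘ σ) (by rw [← bil_map, hφ])).trans (le_of_eq ?_)
  unfold energy
  rw [Finset.sum_image fun a _ b _ hab => Sym2.map.injective hσ hab]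
  simp only [bil_map]

lemma marg_map_le {σ : V → W} (hσ : Function.Injective σ) {E : Set (Sym2 V)} {E' : Set (Sym2 W)}
    (hE : ∀ f, f ∈ E → f.map σ ∈ E') {l : Sym2 V → ℝ} {l' : Sym2 W → ℝ}
    (hl : ∀ f, l' (f.map σ) = l f) (e : Sym2 V) : marg E' l' (e.map σ) ≤ marg E l e := by
  refine le_marg (marg_le_one _ _ _) fun H h1 h2 h3 => ?_
  have h4 : ((H.image (Sym2.map σ) : Finset (Sym2 W)) : Set (Sym2 W)) ⊆ E' := by
    intro f hf
    obtain ⟨g, hg, rfl⟩ := Finset.mem_image.1 hf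
    exact hE g (h2 hg)
  refine (marg_le l' (Finset.mem_image_of_mem _ h1) h4 (by rwa [Sym2.isDiag_map hσ])).trans ?_
  unfold mfin
  rw [hl]
  refine div_le_div_of_nonneg_left (Real.exp_pos _).le (cond_exp_pos l h3 h1) ?_
  have := cond_map_le hσ H (c := fun f => Real.exp (l' f)) (fun _ => (Real.exp_pos _).le) h3
  simpa only [hl] using this

lemma marg_map (σ : V ≃ W) {E : Set (Sym2 V)} {E' : Set (Sym2 W)}
    (hE : ∀ f : Sym2 V, f.map σ ∈ E' ↔ f ∈ E) {l : Sym2 V → ℝ} {l' : Sym2 W → ℝ}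
    (hl : ∀ f, l' (f.map σ) = l f) (e : Sym2 V) : marg E' l' (e.map σ) = marg E l e := by
  refine le_antisymm (marg_map_le σ.injective (fun f hf => (hE f).2 hf) hl e) ?_
  have := marg_map_le σ.symm.injective (E := E') (E' := E) (l := l') (l' := l)
    (fun f hf => (hE _).1 (by rwa [map_map_symm])) (fun f => by rw [← hl, map_map_symm]) (e.map σ)
  rwa [map_symm_map] at this

end marg

end Vale.Agent.P143
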