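import Vale.Agent.P143.Limit

namespace Vale.Agent.P143

open MeasureTheory ProbabilityTheory Classical Filter Topology SimpleGraph

variable {V : Type*} {G : SimpleGraph V}

lemma exists_exhaustion [Countable V] (hG : G.Connected) :
    ∃ H : ℕ → G.Subgraph, IsExhaustion H := by
  obtain ⟨o⟩ := hG.nonempty
  have : Nonempty V := ⟨o⟩
  obtain ⟨f, hf⟩ := exists_surjective_nat (V × V)
  let p : ∀ x, G.Walk o x := fun x => (hG.preconnected o x).some
  let K : V × V → G.Subgraph := fun q =>
    if h : G.Adj q.1 q.2 then ((p q.1).concat h).toSubgraph else (p q.1).toSubgraph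
  have hK : ∀ q, (K q).verts.Finite ∧ (K q).Connected ∧ o ∈ (K q).verts := by
    have : ∀ {x} (w : G.Walk o x), w.toSubgraph.verts.Finite ∧ w.toSubgraph.Connected ∧
        o ∈ w.toSubgraph.verts := fun w =>
      ⟨by rw [Walk.verts_toSubgraph]; exact List.finite_toSet _, w.toSubgraph_connected,
        w.start_mem_verts_toSubgraph⟩
    intro q
    simp only [K]
    split_ifs
    · exact this _
    · exact this _
  refine ⟨partialSups (fun n => K (f n)), (partialSups _).monotone, fun n => ?_, ?_⟩
  · have : (partialSups (fun n => K (f n)) n).verts.Finite ∧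
        (partialSups (fun n => K (f n)) n).Connected ∧
        o ∈ (partialSups (fun n => K (f n)) n).verts := by
      induction n with
      | zero => simpa using hK (f 0)
      | succ n ih =>
        rw [partialSups_add_one]
        obtain ⟨h1, h2, h3⟩ := hK (f (n + 1))
        exact ⟨by rw [Subgraph.verts_sup]; exact ih.1.union h1,
          Subgraph.connected_sup ih.2.1.preconnected h2.preconnected ⟨o, ih.2.2, h3⟩,
          Or.inl ih.2.2⟩
    exact ⟨this.1, this.2.1⟩
  · rw [iSup_partialSups_eq, hf.iSup_comp K]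
    refine top_le_iff.1 ⟨fun x _ => ?_, fun x y h => ?_⟩
    · rw [Subgraph.verts_iSup]
      refine Set.mem_iUnion.2 ⟨(x, x), ?_⟩
      simp only [K, G.irrefl, dite_false]
      exact (p x).end_mem_verts_toSubgraph
    · have h : G.Adj x y := h
      rw [Subgraph.iSup_adj]
      refine ⟨(x, y), ?_⟩
      simp only [K, h, dite_true]
      rw [← Subgraph.mem_edgeSet, Walk.edgeSet_toSubgraph]
      simp

lemma finite_edgeSet {H : G.Subgraph} (h : H.verts.Finite) : H.edgeSet.Finite := by
  refine ((h.prod h).image fun q => s(q.1, q.2)).subset fun e he => ?_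
  induction e using Sym2.ind with
  | _ x y => exact ⟨(x, y), ⟨H.edge_vert he, H.edge_vert (H.adj_symm he)⟩, rfl⟩

lemma ust_cyl [Countable V] {H : G.Subgraph} (h : H.edgeSet.Finite) (hc : H.Connected)
    (A B : Finset (Sym2 V)) :
    (∀ x y, s(x, y) ∈ h.toFinset → x ≠ y ∧ x ∈ H.verts) ∧
    (∀ x ∈ H.verts, ∀ y ∈ H.verts, Rch h.toFinset x y) ∧
    ust H (cyl A B) = ENNReal.ofReal ((∑ T ∈ trees H.verts h.toFinset,
      if (T : Set (Sym2 V)) ∈ cyl A B then (1 : ℝ) else 0) / (trees H.verts h.toFinset).card) := by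
  have h2 : ∀ x ∈ H.verts, ∀ y ∈ H.verts, Rch h.toFinset x y := by
    intro x hx y hy
    unfold Rch
    rw [h.coe_toFinset]
    exact Reachable.map (G' := fromEdgeSet H.edgeSet)
      ⟨Subtype.val, fun {a b} hab => (fromEdgeSet_adj _).2 ⟨hab, (H.adj_sub hab).ne⟩⟩
      (hc.preconnected ⟨x, hx⟩ ⟨y, hy⟩)
  refine ⟨fun x y hxy => ?_, h2, ?_⟩
  · have : H.Adj x y := h.mem_toFinset.1 hxy
    exact ⟨(H.adj_sub this).ne, H.edge_vert this⟩
  have e1 : spanningTrees H = ((trees H.verts h.toFinset).image
      (fun T : Finset (Sym2 V) => (T : Set (Sym2 V))) : Finset (Set (Sym2 V))) := by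
    ext S
    simp only [Finset.coe_image, Set.mem_image, Finset.mem_coe, mem_trees, spanningTrees,
      Set.mem_ofPred_eq]
    constructor
    · rintro ⟨a, b, c⟩
      refine ⟨(h.subset a).toFinset, ⟨by simpa using a, ?_, ?_⟩, by simp⟩
      · simpa [Acyc] using b
      · simpa [Rch] using c
    · rintro ⟨T, ⟨a, b, c⟩, rfl⟩
      exact ⟨fun e he => h.mem_toFinset.1 (a he), b, c⟩
  set t := (trees H.verts h.toFinset).image fun T : Finset (Sym2 V) => (T : Set (Sym2 V))
  have e2 : (t : Set (Set (Sym2 V))) ∩ cyl A B = (t.filter (· ∈ cyl A B) : Finset _) := by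
    ext S; simp
  have hpos : (0 : ℝ) < (trees H.verts h.toFinset).card := by
    exact_mod_cast (trees_nonempty h2).card_pos
  rw [ust, e1, ← uniformOn_inter_self t.finite_toSet, e2, uniformOn_apply_finset,
    Finset.inter_eq_right.2 (Finset.filter_subset _ _), Finset.sum_boole,
    ENNReal.ofReal_div_of_pos hpos, ENNReal.ofReal_natCast, ENNReal.ofReal_natCast,
    Finset.filter_image, Finset.card_image_of_injective _ Finset.coe_injective,
    Finset.card_image_of_injective _ Finset.coe_injective]

theorem ust_tendsto [Countable V] {H : ℕ → G.Subgraph} (hH : IsExhaustion H)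
    {K : Type*} [LinearOrder K] {key : Sym2 V → K} (hkey : Set.InjOn key G.edgeSet)
    {N : Type*} {ι : Sym2 V × ℕ → N} {U : (N → unitInterval) → Sym2 V × ℕ → unitInterval}
    (hU : Feed G.edgeSet ι U) (A B : Finset (Sym2 V)) :
    Tendsto (fun n => ust (H n) (cyl A B)) atTop
      (𝓝 (iidUniform N {b | Phi G.edgeSet (fun f g => key f < key g) (U b) ∈ cyl A B})) := by
  obtain ⟨h1, h2, h3⟩ := hH
  have hf := fun n => finite_edgeSet (h2 n).1
  have hu := fun n => ust_cyl (hf n) (h2 n).2 A B
  have := cyl_tendsto (E := G.edgeSet) (W := fun n => (H n).verts) (H := fun n => (hf n).toFinset)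
    (fun n => (hu n).1) (fun n => (hu n).2.1)
    (fun n => by rw [(hf n).coe_toFinset]; exact (H n).edgeSet_subset) (fun f hfG => by
      rw [← Subgraph.edgeSet_top, ← h3, Subgraph.edgeSet_iSup] at hfG
      obtain ⟨n, hn⟩ := Set.mem_iUnion.1 hfG
      exact eventually_atTop.2 ⟨n, fun m hm =>
        (hf m).mem_toFinset.2 (Subgraph.edgeSet_mono (h1 hm) hn)⟩) hkey hU A B
  simp only [fun n => (hu n).2.2]
  rw [← ofReal_measureReal]
  exact ENNReal.tendsto_ofReal this

end Vale.Agent.P143
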