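import Vale.Agent.P143.Labels

namespace Vale.Agent.P143

open MeasureTheory unitInterval Filter SimpleGraph

lemma Fac_subset {V : Type*} (G : SimpleGraph V) (ω : V × Slot → I) : Fac G ω ⊆ G.edgeSet := by
  intro e he
  by_contra h
  obtain ⟨j, hj⟩ := Eventually.exists he
  simp only [soft, h, if_false] at hj
  norm_num at hj

theorem graph_factor : ∃ Φ : ∀ V : Type, SimpleGraph V → (V → I) → Set (Sym2 V),
    (∀ (V : Type) [Countable V], Measurable (Function.uncurry (Φ V))) ∧
    (∀ (V : Type) (G : SimpleGraph V) (U : V → I), Φ V G U ⊆ G.edgeSet) ∧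
    (∀ (V W : Type) (G : SimpleGraph V) (G' : SimpleGraph W) (τ : G ≃g G') (U : V → I)
      (U' : W → I), (∀ v, U' (τ v) = U v) → ∀ e : Sym2 V, e.map τ ∈ Φ W G' U' ↔ e ∈ Φ V G U) ∧
    ∀ (V : Type) [Countable V] (G : SimpleGraph V), G.Connected →
      (∀ v, (G.neighborSet v).Finite) → IsFUSF G ((iidUniform V).map (Φ V G)) := by
  obtain ⟨spl, hm, hmp⟩ := exists_split Slot
  refine ⟨fun V G U => Fac G fun p => spl (U p.1) p.2, fun V _ => ?_, fun V G U => Fac_subset _ _,
    fun V W G G' τ U U' h e => Fac_map τ (fun v m => by simp only [h]) e, fun V _ G hc hG => ?_⟩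
  · exact measurable_Fac.comp (measurable_fst.prodMk ((hmp V).measurable.comp measurable_snd))
  · have := Fac_isFUSF hc hG
    have hF : Measurable (Fac G) := measurable_Fac.of_uncurry_left
    rwa [← (hmp V).map_eq, Measure.map_map hF (hmp V).measurable] at this

variable {Γ : Type} [Group Γ] {S : Finset Γ}

lemma countable_of_closure (hS : Subgroup.closure (S : Set Γ) = ⊤) : Countable Γ := by
  have : Function.Surjective (FreeGroup.lift (fun x : (S : Set Γ) => (x : Γ))) := by
    rw [← MonoidHom.range_eq_top, FreeGroup.range_lift_eq_closure, Subtype.range_coe, hS]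
  exact this.countable

lemma cayley_connected (hS : Subgroup.closure (S : Set Γ) = ⊤) :
    (mulCayley (S : Set Γ)).Connected := by
  have step : ∀ x, ∀ y ∈ (S : Set Γ), (mulCayley (S : Set Γ)).Reachable x (x * y) := by
    intro x y hy
    by_cases h : x = x * y
    · rw [← h]
    · exact Adj.reachable ((mulCayley_adj' _ _ _).2 ⟨h, y, hy, Or.inl rfl⟩)
  have : ∀ x, (mulCayley (S : Set Γ)).Reachable 1 x := by
    intro x
    have hx : x ∈ Subgroup.closure (S : Set Γ) := hS ▸ Subgroup.mem_top x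
    induction hx using Subgroup.closure_induction_right with
    | one => rfl
    | mul_right x _ y hy ih => exact ih.trans (step x y hy)
    | mul_inv_cancel x _ y hy ih =>
      have := step (x * y⁻¹) y hy
      rw [inv_mul_cancel_right] at this
      exact ih.trans this.symm
  exact ⟨fun x y => (this x).symm.trans (this y)⟩

lemma cayley_finite (x : Γ) : ((mulCayley (S : Set Γ)).neighborSet x).Finite := by
  refine ((S.finite_toSet.image (x * ·)).union (S.finite_toSet.image (x * ·⁻¹))).subset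
    fun y hy => ?_
  obtain ⟨-, g, hg, h | h⟩ := (mulCayley_adj' _ _ _).1 hy
  · exact Or.inl ⟨g, hg, h⟩
  · exact Or.inr ⟨g, hg, by simp [h]⟩

theorem cayley_factor (hS : Subgroup.closure (S : Set Γ) = ⊤) :
    ∃ Φ : (Γ → I) → Set (Sym2 Γ), Measurable Φ ∧
      (∀ U, Φ U ⊆ (mulCayley (S : Set Γ)).edgeSet) ∧
      (∀ (γ : Γ) (U : Γ → I), Φ (fun x => U (γ⁻¹ * x)) = Sym2.map (γ * ·) '' Φ U) ∧
      IsFUSF (mulCayley (S : Set Γ)) ((iidUniform Γ).map Φ) := by
  obtain ⟨Φ, h1, h2, h3, h4⟩ := graph_factor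
  have := countable_of_closure hS
  refine ⟨Φ Γ _, (h1 Γ).comp measurable_prodMk_left, h2 Γ _, fun γ U => ?_,
    h4 Γ _ (cayley_connected hS) cayley_finite⟩
  let τ : mulCayley (S : Set Γ) ≃g mulCayley (S : Set Γ) :=
    ⟨Equiv.mulLeft γ, mulCayley_adj_mul_iff_right⟩
  have key := h3 Γ Γ _ _ τ U (fun x => U (γ⁻¹ * x)) (fun v => congrArg U (inv_mul_cancel_left γ v))
  ext e
  obtain ⟨f, rfl⟩ : ∃ f : Sym2 Γ, f.map τ = e := ⟨_, map_map_symm τ.toEquiv e⟩
  rw [key]
  exact ((Sym2.map.injective τ.injective).mem_set_image).symm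

end Vale.Agent.P143
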