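import Vale.Agent.P143.Energy

namespace Vale.Agent.P143

open SimpleGraph Classical

variable {V : Type*}

def Rch (S : Finset (Sym2 V)) (x y : V) : Prop :=
  (fromEdgeSet (S : Set (Sym2 V))).Reachable x y

lemma Rch.refl (S : Finset (Sym2 V)) (x : V) : Rch S x x := Reachable.refl x
lemma Rch.symm {S : Finset (Sym2 V)} {x y : V} (h : Rch S x y) : Rch S y x := Reachable.symm h
lemma Rch.trans {S : Finset (Sym2 V)} {x y z : V} (h : Rch S x y) (h' : Rch S y z) : Rch S x z :=
  Reachable.trans h h'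
lemma Rch.mono {S S' : Finset (Sym2 V)} (hS : S ⊆ S') {x y : V} (h : Rch S x y) : Rch S' x y :=
  Reachable.mono (fromEdgeSet_mono (by exact_mod_cast hS)) h

lemma Rch.of_mem {S : Finset (Sym2 V)} {x y : V} (h : s(x, y) ∈ S) : Rch S x y := by
  by_cases hxy : x = y
  · subst hxy; exact Rch.refl S x
  · exact Adj.reachable ((fromEdgeSet_adj _).2 ⟨h, hxy⟩)

lemma Rch.induction {S : Finset (Sym2 V)} {x : V} {P : V → Prop} (h0 : P x)
    (h1 : ∀ y z, Rch S x y → P y → s(y, z) ∈ S → y ≠ z → P z) {y : V} (h : Rch S x y) : P y := by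
  unfold Rch at h
  rw [reachable_iff_reflTransGen] at h
  induction h with
  | refl => exact h0
  | tail a b ih =>
    rw [fromEdgeSet_adj] at b
    exact h1 _ _ ((reachable_iff_reflTransGen _ _).2 a) ih b.1 b.2

lemma Rch.erase {S : Finset (Sym2 V)} (p q : V) {x y : V} (h : Rch S x y) :
    Rch (S.erase s(p, q)) x y ∨ (Rch (S.erase s(p, q)) x p ∧ Rch (S.erase s(p, q)) q y) ∨
      (Rch (S.erase s(p, q)) x q ∧ Rch (S.erase s(p, q)) p y) := by
  refine Rch.induction (P := fun y => Rch (S.erase s(p, q)) x y ∨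
    (Rch (S.erase s(p, q)) x p ∧ Rch (S.erase s(p, q)) q y) ∨
      (Rch (S.erase s(p, q)) x q ∧ Rch (S.erase s(p, q)) p y)) (Or.inl (Rch.refl _ _)) ?_ h
  intro y z _ ih hyz _
  by_cases hf : s(y, z) = s(p, q)
  · rcases Sym2.eq_iff.1 hf with ⟨rfl, rfl⟩ | ⟨rfl, rfl⟩
    · rcases ih with h | h | h
      · exact Or.inr (Or.inl ⟨h, Rch.refl _ _⟩)
      · exact Or.inr (Or.inl ⟨h.1, Rch.refl _ _⟩)
      · exact Or.inl h.1
    · rcases ih with h | h | h
      · exact Or.inr (Or.inr ⟨h, Rch.refl _ _⟩)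
      · exact Or.inl h.1
      · exact Or.inr (Or.inr ⟨h.1, Rch.refl _ _⟩)
  · have a : Rch (S.erase s(p, q)) y z := Rch.of_mem (Finset.mem_erase.2 ⟨hf, hyz⟩)
    rcases ih with h | h | h
    · exact Or.inl (h.trans a)
    · exact Or.inr (Or.inl ⟨h.1, h.2.trans a⟩)
    · exact Or.inr (Or.inr ⟨h.1, h.2.trans a⟩)

def Acyc (S : Finset (Sym2 V)) : Prop := (fromEdgeSet (S : Set (Sym2 V))).IsAcyclic

lemma Acyc.anti {S S' : Finset (Sym2 V)} (hS : S ⊆ S') (h : Acyc S') : Acyc S :=
  IsAcyclic.anti (fromEdgeSet_mono (by exact_mod_cast hS)) h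

lemma from_erase (S : Finset (Sym2 V)) (f : Sym2 V) :
    fromEdgeSet ((S.erase f : Finset (Sym2 V)) : Set (Sym2 V)) =
      (fromEdgeSet (S : Set (Sym2 V))).deleteEdges {f} := by
  ext x y
  simp only [fromEdgeSet_adj, Finset.coe_erase, deleteEdges_adj, Set.mem_sdiff]
  tauto

lemma Acyc.not_rch {S : Finset (Sym2 V)} (h : Acyc S) {p q : V} (hpq : s(p, q) ∈ S) (hne : p ≠ q) :
    ¬ Rch (S.erase s(p, q)) p q := by
  unfold Rch
  rw [from_erase]
  exact isBridge_iff.1 (isAcyclic_iff_forall_adj_isBridge.1 h ((fromEdgeSet_adj _).2 ⟨hpq, hne⟩))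

lemma acyc_of_forall {S : Finset (Sym2 V)}
    (h : ∀ p q, s(p, q) ∈ S → p ≠ q → ¬ Rch (S.erase s(p, q)) p q) : Acyc S := by
  refine isAcyclic_iff_forall_adj_isBridge.2 fun p q hpq => ?_
  rw [fromEdgeSet_adj] at hpq
  have := h p q hpq.1 hpq.2
  unfold Rch at this
  rwa [from_erase] at this

lemma Acyc.insert {S : Finset (Sym2 V)} (h : Acyc S) {p q : V} (hpq : ¬ Rch S p q) :
    Acyc (insert s(p, q) S) := by
  have : fromEdgeSet ((Insert.insert s(p, q) S : Finset (Sym2 V)) : Set (Sym2 V)) =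
      fromEdgeSet (S : Set (Sym2 V)) ⊔ edge p q := by
    rw [Finset.coe_insert, Set.insert_eq, fromEdgeSet_union, sup_comm]; rfl
  unfold Acyc
  rw [this]
  exact IsAcyclic.sup_edge_of_not_reachable hpq h

noncomputable def trees (W : Set V) (H : Finset (Sym2 V)) : Finset (Finset (Sym2 V)) :=
  H.powerset.filter fun T => Acyc T ∧ ∀ x ∈ W, ∀ y ∈ W, Rch T x y

noncomputable def forests (W : Set V) (H : Finset (Sym2 V)) (a b : V) :
    Finset (Finset (Sym2 V)) :=
  H.powerset.filter fun F => Acyc F ∧ ¬ Rch F a b ∧ ∀ v ∈ W, Rch F a v ∨ Rch F b v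

lemma mem_trees {W : Set V} {H T : Finset (Sym2 V)} :
    T ∈ trees W H ↔ T ⊆ H ∧ Acyc T ∧ ∀ x ∈ W, ∀ y ∈ W, Rch T x y := by
  simp [trees]

lemma mem_forests {W : Set V} {H F : Finset (Sym2 V)} {a b : V} :
    F ∈ forests W H a b ↔ F ⊆ H ∧ Acyc F ∧ ¬ Rch F a b ∧ ∀ v ∈ W, Rch F a v ∨ Rch F b v := by
  simp [forests]

lemma trees_nonempty {W : Set V} {H : Finset (Sym2 V)} (h : ∀ x ∈ W, ∀ y ∈ W, Rch H x y) :
    (trees W H).Nonempty := by
  obtain ⟨T, hT, hmin⟩ := Finset.exists_min_image
    (H.powerset.filter fun T => ∀ x ∈ W, ∀ y ∈ W, Rch T x y) Finset.card ⟨H, by simpa using h⟩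
  simp only [Finset.mem_filter, Finset.mem_powerset] at hT hmin
  refine ⟨T, mem_trees.2 ⟨hT.1, acyc_of_forall fun p q hpq _ hr => ?_, hT.2⟩⟩
  have := hmin (T.erase s(p, q)) ⟨(Finset.erase_subset _ _).trans hT.1, fun x hx y hy => by
    rcases (hT.2 x hx y hy).erase p q with h | h | h
    · exact h
    · exact (h.1.trans hr).trans h.2
    · exact (h.1.trans hr.symm).trans h.2⟩
  exact absurd (Finset.card_erase_lt_of_mem hpq) (not_lt.2 this)

noncomputable def wt (c : Sym2 V → ℝ) (T : Finset (Sym2 V)) : ℝ := ∏ f ∈ T, c f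

noncomputable def chi (S : Finset (Sym2 V)) (a v : V) : ℝ := if Rch S a v then 1 else 0

lemma chi_congr {S : Finset (Sym2 V)} {a v w : V} (h : Rch S v w) : chi S a v = chi S a w := by
  unfold chi
  have : Rch S a v ↔ Rch S a w := ⟨fun h' => h'.trans h, fun h' => h'.trans h.symm⟩
  simp only [this]

lemma telescope {T : Finset (Sym2 V)} (hT : Acyc T) (ψ : V → ℝ) {r v : V} (h : Rch T r v) :
    ψ r - ψ v = ∑ f ∈ T, (1 - chi (T.erase f) r v) * bil (chi (T.erase f) r) ψ f := by
  refine Rch.induction (P := fun v =>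
    ψ r - ψ v = ∑ f ∈ T, (1 - chi (T.erase f) r v) * bil (chi (T.erase f) r) ψ f) ?_ ?_ h
  · simp [chi, Rch.refl]
  · intro y z hy ih hyz hne
    have key : ∑ f ∈ T, (chi (T.erase f) r y - chi (T.erase f) r z) *
        bil (chi (T.erase f) r) ψ f = ψ y - ψ z := by
      rw [Finset.sum_eq_single s(y, z)]
      · have h1 := hT.not_rch hyz hne
        have h2 : (chi (T.erase s(y, z)) r y - chi (T.erase s(y, z)) r z) *
            (chi (T.erase s(y, z)) r y - chi (T.erase s(y, z)) r z) = 1 := by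
          unfold chi
          by_cases a : Rch (T.erase s(y, z)) r y
          · have b : ¬ Rch (T.erase s(y, z)) r z := fun b => h1 (a.symm.trans b)
            simp [a, b]
          · have b : Rch (T.erase s(y, z)) r z := by
              rcases hy.erase y z with h | h | h
              · exact (a h).elim
              · exact (a h.1).elim
              · exact h.1
            simp [a, b]
        rw [bil_mk, ← mul_assoc, h2, one_mul]
      · intro f _ hf
        rw [chi_congr (Rch.of_mem (Finset.mem_erase.2 ⟨hf.symm, hyz⟩)), sub_self, zero_mul]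
      · intro h; exact (h hyz).elim
    have : ∑ f ∈ T, (1 - chi (T.erase f) r z) * bil (chi (T.erase f) r) ψ f =
        ∑ f ∈ T, (1 - chi (T.erase f) r y) * bil (chi (T.erase f) r) ψ f +
        ∑ f ∈ T, (chi (T.erase f) r y - chi (T.erase f) r z) * bil (chi (T.erase f) r) ψ f := by
      rw [← Finset.sum_add_distrib]
      exact Finset.sum_congr rfl fun f _ => by ring
    rw [this, key, ← ih]; ring

lemma forest_tree_bij {W : Set V} {H : Finset (Sym2 V)} {a b p q : V} (ha : a ∈ W) (hb : b ∈ W)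
    (hp : p ∈ W) (hq : q ∈ W) (hpq : s(p, q) ∈ H) (hne : p ≠ q) (c : Sym2 V → ℝ)
    (g : Finset (Sym2 V) → ℝ) :
    ∑ F ∈ (forests W H a b).filter (fun F => ¬ Rch F p q), c s(p, q) * wt c F * g F =
      ∑ T ∈ (trees W H).filter (fun T => s(p, q) ∈ T ∧ ¬ Rch (T.erase s(p, q)) a b),
        wt c T * g (T.erase s(p, q)) := by
  refine Finset.sum_nbij' (fun F => insert s(p, q) F) (fun T => T.erase s(p, q)) ?_ ?_ ?_ ?_ ?_
  · intro F hF
    rw [Finset.mem_filter, mem_forests] at hF
    obtain ⟨⟨h1, h2, h3, h4⟩, h5⟩ := hF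
    have hnot : s(p, q) ∉ F := fun h => h5 (Rch.of_mem h)
    rw [Finset.mem_filter, mem_trees, Finset.erase_insert hnot]
    refine ⟨⟨Finset.insert_subset hpq h1, h2.insert h5, ?_⟩, Finset.mem_insert_self _ _, h3⟩
    have sub : F ⊆ insert s(p, q) F := Finset.subset_insert _ _
    have e : Rch (insert s(p, q) F) p q := Rch.of_mem (Finset.mem_insert_self _ _)
    have hab : Rch (insert s(p, q) F) a b := by
      rcases h4 p hp with x | x <;> rcases h4 q hq with y | y
      · exact (h5 (x.symm.trans y)).elim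
      · exact ((x.mono sub).trans e).trans (y.mono sub).symm
      · exact ((y.mono sub).trans e.symm).trans (x.mono sub).symm
      · exact (h5 (x.symm.trans y)).elim
    have all : ∀ v ∈ W, Rch (insert s(p, q) F) a v := fun v hv => by
      rcases h4 v hv with x | x
      · exact x.mono sub
      · exact hab.trans (x.mono sub)
    exact fun x hx y hy => (all x hx).symm.trans (all y hy)
  · intro T hT
    rw [Finset.mem_filter, mem_trees] at hT
    obtain ⟨⟨h1, h2, h3⟩, h4, h5⟩ := hT
    rw [Finset.mem_filter, mem_forests]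
    refine ⟨⟨(Finset.erase_subset _ _).trans h1, h2.anti (Finset.erase_subset _ _), h5, ?_⟩,
      h2.not_rch h4 hne⟩
    intro v hv
    rcases (h3 a ha b hb).erase p q with x | x | x
    · exact (h5 x).elim
    · rcases (h3 a ha v hv).erase p q with y | y | y
      · exact Or.inl y
      · exact Or.inr (x.2.symm.trans y.2)
      · exact Or.inl (x.1.trans y.2)
    · rcases (h3 a ha v hv).erase p q with y | y | y
      · exact Or.inl y
      · exact Or.inl (x.1.trans y.2)
      · exact Or.inr (x.2.symm.trans y.2)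
  · intro F hF
    rw [Finset.mem_filter] at hF
    exact Finset.erase_insert fun h => hF.2 (Rch.of_mem h)
  · intro T hT
    rw [Finset.mem_filter] at hT
    exact Finset.insert_erase hT.2.1
  · intro F hF
    rw [Finset.mem_filter] at hF
    have hnot : s(p, q) ∉ F := fun h => hF.2 (Rch.of_mem h)
    simp only [Finset.erase_insert hnot, wt, Finset.prod_insert hnot]

lemma bil_sum_left {ι : Type*} (s : Finset ι) (w : ι → ℝ) (φ : ι → V → ℝ) (ψ : V → ℝ)
    (f : Sym2 V) : bil (fun v => ∑ i ∈ s, w i * φ i v) ψ f = ∑ i ∈ s, w i * bil (φ i) ψ f := by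
  induction f using Sym2.ind with
  | _ x y =>
    simp only [bil_mk, ← Finset.sum_sub_distrib, Finset.sum_mul]
    exact Finset.sum_congr rfl fun i _ => by ring

lemma current_identity {W : Set V} {H : Finset (Sym2 V)}
    (hH : ∀ x y, s(x, y) ∈ H → x ≠ y ∧ x ∈ W) {a b : V} (ha : a ∈ W) (hb : b ∈ W)
    (c : Sym2 V → ℝ) (ψ : V → ℝ) :
    ∑ f ∈ H, c f * bil (fun v => ∑ F ∈ forests W H a b, wt c F * chi F a v) ψ f =
      (∑ T ∈ trees W H, wt c T) * (ψ a - ψ b) := by
  have step : ∀ f ∈ H, c f * bil (fun v => ∑ F ∈ forests W H a b, wt c F * chi F a v) ψ f =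
      ∑ T ∈ trees W H, if f ∈ T then
        wt c T * ((1 - chi (T.erase f) a b) * bil (chi (T.erase f) a) ψ f) else 0 := by
    intro f hf
    induction f using Sym2.ind with
    | _ p q =>
      have h1 := hH p q hf
      have h2 := hH q p (Sym2.eq_swap ▸ hf)
      have := forest_tree_bij ha hb h1.2 h2.2 hf h1.1 c (fun F => bil (chi F a) ψ s(p, q))
      rw [Finset.sum_filter, Finset.sum_filter] at this
      rw [bil_sum_left, Finset.mul_sum]
      convert this using 2 with F _ T _
      · split_ifs with h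
        · rw [bil_mk, chi_congr h]; simp
        · ring
      · by_cases x : s(p, q) ∈ T <;> by_cases y : Rch (T.erase s(p, q)) a b <;>
          simp [x, y, chi]
  rw [Finset.sum_congr rfl step, Finset.sum_comm, Finset.sum_mul]
  refine Finset.sum_congr rfl fun T hT => ?_
  rw [mem_trees] at hT
  rw [← Finset.sum_filter, Finset.filter_mem_eq_inter, Finset.inter_eq_right.2 hT.1,
    ← Finset.mul_sum, ← telescope hT.2.1 ψ (hT.2.2 a ha b hb)]

lemma wt_pos {c : Sym2 V → ℝ} (hc : ∀ f, 0 < c f) (T : Finset (Sym2 V)) : 0 < wt c T :=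
  Finset.prod_pos fun f _ => hc f

theorem kirchhoff {W : Set V} {H : Finset (Sym2 V)}
    (hH : ∀ x y, s(x, y) ∈ H → x ≠ y ∧ x ∈ W) (hconn : ∀ x ∈ W, ∀ y ∈ W, Rch H x y)
    {c : Sym2 V → ℝ} (hc : ∀ f, 0 < c f) {e : Sym2 V} (he : e ∈ H) :
    ∑ T ∈ (trees W H).filter (fun T => e ∈ T), wt c T =
      c e / cond H c e * ∑ T ∈ trees W H, wt c T := by
  induction e using Sym2.ind with
  | _ a b =>
  have h1 := hH a b he
  have h2 := hH b a (Sym2.eq_swap ▸ he)
  have hZ : 0 < ∑ T ∈ trees W H, wt c T :=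
    Finset.sum_pos (fun T _ => wt_pos hc T) (trees_nonempty hconn)
  have cur := current_identity hH h1.2 h2.2 c
  set Z := ∑ T ∈ trees W H, wt c T
  set Φ : V → ℝ := fun v => ∑ F ∈ forests W H a b, wt c F * chi F a v with hΦ
  set Y := ∑ F ∈ forests W H a b, wt c F with hY
  have Φa : Φ a = Y := by simp [hΦ, chi, Rch.refl, hY]
  have Φb : Φ b = 0 := Finset.sum_eq_zero fun F hF => by
    simp [chi, (mem_forests.1 hF).2.2.1]
  have hYpos : 0 < Y := by
    refine Finset.sum_pos (fun T _ => wt_pos hc T) ?_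
    rw [Finset.nonempty_iff_ne_empty]
    intro hemp
    have := cur (fun v => if v = a then 1 else 0)
    have z : ∀ f, bil Φ (fun v => if v = a then 1 else 0) f = 0 := by
      intro f
      induction f using Sym2.ind with
      | _ x y => simp [hΦ, hemp]
    simp [z, h1.1.symm] at this
    linarith
  have bij := forest_tree_bij h1.2 h2.2 h1.2 h2.2 he h1.1 c (fun _ => 1)
  have e1 : (forests W H a b).filter (fun F => ¬ Rch F a b) = forests W H a b :=
    Finset.filter_true_of_mem fun F hF => (mem_forests.1 hF).2.2.1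
  have e2 : (trees W H).filter (fun T => s(a, b) ∈ T ∧ ¬ Rch (T.erase s(a, b)) a b) =
      (trees W H).filter (fun T => s(a, b) ∈ T) :=
    Finset.filter_congr fun T hT => ⟨fun h => h.1,
      fun h => ⟨h, (mem_trees.1 hT).2.1.not_rch h h1.1⟩⟩
  rw [e1, e2] at bij
  simp only [mul_one] at bij
  rw [← Finset.mul_sum, ← hY] at bij
  have hnd : ¬ (s(a, b) : Sym2 V).IsDiag := by simpa using h1.1
  have enΦ : ∀ t : ℝ, energy H c (fun v => t * Φ v) = t * t * (Z * Y) := by
    intro t
    have := cur Φ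
    rw [Φa, Φb, sub_zero] at this
    rw [← this, Finset.mul_sum]
    refine Finset.sum_congr rfl fun f _ => ?_
    induction f using Sym2.ind with
    | _ x y => simp only [bil_mk]; ring
  have hcond : cond H c s(a, b) = Z / Y := by
    refine le_antisymm ?_ (le_cond hnd fun φ hφ => ?_)
    · refine (cond_le (fun f => (hc f).le) (φ := fun v => Y⁻¹ * Φ v) ?_).trans (le_of_eq ?_)
      · simp only [bil_mk, Φa, Φb]; field_simp; ring
      · rw [enΦ]; field_simp
    · rw [bil_mk] at hφ
      set t := (φ a - φ b) / Y with ht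
      have n := energy_nonneg (H := H) (fun f => (hc f).le) (fun v => φ v - t * Φ v)
      have ex : energy H c (fun v => φ v - t * Φ v) =
          energy H c φ - 2 * t * (∑ f ∈ H, c f * bil Φ φ f) + energy H c (fun v => t * Φ v) := by
        unfold energy
        rw [Finset.mul_sum, ← Finset.sum_sub_distrib, ← Finset.sum_add_distrib]
        refine Finset.sum_congr rfl fun f _ => ?_
        induction f using Sym2.ind with
        | _ x y => simp only [bil_mk]; ring
      rw [ex, cur φ, enΦ] at n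
      have a1 : t * (Z * (φ a - φ b)) = Z / Y := by
        rw [ht]; field_simp; nlinarith
      have a2 : t * t * (Z * Y) = Z / Y := by
        rw [ht]; field_simp; nlinarith
      linarith
  rw [hcond, ← bij]
  field_simp

end Vale.Agent.P143
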