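import Vale.Agent.P143.Defs

namespace Vale.Agent.P143

open MeasureTheory unitInterval Classical

instance iidUniform_prob (N : Type*) : IsProbabilityMeasure (iidUniform N) := by
  unfold iidUniform; infer_instance

variable {N : Type*}

lemma piecewise_mp (S : Set N) [DecidablePred (· ∈ S)] :
    MeasurePreserving (fun p : (N → I) × (N → I) => S.piecewise p.1 p.2)
      ((iidUniform N).prod (iidUniform N)) (iidUniform N) := by
  have hm : Measurable fun p : (N → I) × (N → I) => S.piecewise p.1 p.2 := by
    refine measurable_pi_iff.2 fun n => ?_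
    by_cases h : n ∈ S
    · simp only [Set.piecewise_eq_of_mem _ _ _ h]; fun_prop
    · simp only [Set.piecewise_eq_of_notMem _ _ _ h]; fun_prop
  refine ⟨hm, ?_⟩
  refine Measure.eq_infinitePi _ fun s t ht => ?_
  rw [Measure.map_apply hm (.pi s.countable_toSet fun _ _ => ht _)]
  have : (fun p : (N → I) × (N → I) => S.piecewise p.1 p.2) ⁻¹' Set.pi s t =
      (Set.pi (s.filter (· ∈ S)) t) ×ˢ (Set.pi (s.filter (· ∉ S)) t) := by
    ext p
    simp only [Set.mem_preimage, Set.mem_pi, Finset.mem_coe, Set.mem_prod, Finset.mem_filter]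
    constructor
    · intro h
      exact ⟨fun i hi => by simpa [hi.2] using h i hi.1, fun i hi => by simpa [hi.2] using h i hi.1⟩
    · intro h i hi
      by_cases hS : i ∈ S
      · simpa [hS] using h.1 i ⟨hi, hS⟩
      · simpa [hS] using h.2 i ⟨hi, hS⟩
  rw [this, Measure.prod_prod, iidUniform, Measure.infinitePi_pi _ fun i _ => ht i,
    Measure.infinitePi_pi _ fun i _ => ht i, Finset.prod_filter_mul_prod_filter_not]

lemma update_mp (n : N) :
    MeasurePreserving (fun p : (N → I) × I => Function.update p.1 n p.2)
      ((iidUniform N).prod volume) (iidUniform N) := by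
  have hm : Measurable fun p : (N → I) × I => Function.update p.1 n p.2 := measurable_update'
  have h1 : MeasurePreserving (Prod.map id (Function.eval n) : (N → I) × (N → I) → (N → I) × I)
      ((iidUniform N).prod (iidUniform N)) ((iidUniform N).prod volume) :=
    (MeasurePreserving.id _).prod (measurePreserving_eval_infinitePi _ n)
  refine ⟨hm, ?_⟩
  rw [← h1.map_eq, Measure.map_map hm h1.measurable]
  refine Eq.trans ?_ (piecewise_mp {n}ᶜ).map_eq
  congr 1
  ext p m
  by_cases h : m = n
  · subst h; simp
  · simp [h]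

/-- bounded and measurable -/
structure BM {X : Type*} [MeasurableSpace X] (F : X → ℝ) : Prop where
  meas : Measurable F
  bdd : ∃ C, ∀ x, |F x| ≤ C

namespace BM
variable {X Y : Type*} [MeasurableSpace X] [MeasurableSpace Y] {F G : X → ℝ}

lemma integrable (h : BM F) (μ : Measure X) [IsFiniteMeasure μ] : Integrable F μ := by
  obtain ⟨C, hC⟩ := h.bdd
  exact Integrable.of_bound h.meas.aestronglyMeasurable C (Filter.Eventually.of_forall hC)

lemma const (c : ℝ) : BM fun _ : X => c := ⟨measurable_const, |c|, fun _ => le_rfl⟩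

lemma of_mem {a b : ℝ} (hm : Measurable F) (h : ∀ x, F x ∈ Set.Icc a b) : BM F :=
  ⟨hm, max |a| |b|, fun x => abs_le_max_abs_abs (h x).1 (h x).2⟩

lemma add (hF : BM F) (hG : BM G) : BM fun x => F x + G x := by
  obtain ⟨C, hC⟩ := hF.bdd
  obtain ⟨D, hD⟩ := hG.bdd
  exact ⟨hF.meas.add hG.meas, C + D, fun x => (abs_add_le _ _).trans (add_le_add (hC x) (hD x))⟩

lemma mul (hF : BM F) (hG : BM G) : BM fun x => F x * G x := by
  obtain ⟨C, hC⟩ := hF.bdd
  obtain ⟨D, hD⟩ := hG.bdd
  refine ⟨hF.meas.mul hG.meas, C * D, fun x => ?_⟩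
  rw [abs_mul]
  exact mul_le_mul (hC x) (hD x) (abs_nonneg _) ((abs_nonneg _).trans (hC x))

lemma sub (hF : BM F) (hG : BM G) : BM fun x => F x - G x := by
  simpa [sub_eq_add_neg] using hF.add ((const (-1)).mul hG)

lemma abs (hF : BM F) : BM fun x => |F x| := by
  obtain ⟨C, hC⟩ := hF.bdd
  exact ⟨hF.meas.abs, C, fun x => by simpa using hC x⟩

lemma sum {ι : Type*} (s : Finset ι) {F : ι → X → ℝ} (h : ∀ i ∈ s, BM (F i)) :
    BM fun x => ∑ i ∈ s, F i x := by
  induction s using Finset.induction_on with
  | empty => simpa using const 0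
  | insert a s ha ih =>
    simp only [Finset.sum_insert ha]
    exact (h a (Finset.mem_insert_self _ _)).add (ih fun i hi => h i (Finset.mem_insert_of_mem hi))

lemma prod {ι : Type*} (s : Finset ι) {F : ι → X → ℝ} (h : ∀ i ∈ s, BM (F i)) :
    BM fun x => ∏ i ∈ s, F i x := by
  induction s using Finset.induction_on with
  | empty => simpa using const 1
  | insert a s ha ih =>
    simp only [Finset.prod_insert ha]
    exact (h a (Finset.mem_insert_self _ _)).mul (ih fun i hi => h i (Finset.mem_insert_of_mem hi))

lemma comp (hF : BM F) {g : Y → X} (hg : Measurable g) : BM fun y => F (g y) := by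
  obtain ⟨C, hC⟩ := hF.bdd
  exact ⟨hF.meas.comp hg, C, fun y => hC _⟩

lemma integral_right {F : X × I → ℝ} (hF : BM F) : BM fun x => ∫ t : I, F (x, t) := by
  obtain ⟨C, hC⟩ := hF.bdd
  refine ⟨(hF.meas.stronglyMeasurable.integral_prod_right' (ν := volume)).measurable, C,
    fun x => ?_⟩
  simpa using norm_integral_le_of_norm_le_const (μ := (volume : Measure I))
    (f := fun t => F (x, t)) (C := C) (Filter.Eventually.of_forall fun t => hC _)

end BM

lemma integral_update (n : N) {F : (N → I) → ℝ} (hF : BM F) :
    ∫ b, F b ∂(iidUniform N) = ∫ b, ∫ t : I, F (Function.update b n t) ∂volume ∂(iidUniform N) := by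
  have h := update_mp n
  rw [← integral_prod (fun p : (N → I) × I => F (Function.update p.1 n p.2))
    ((hF.comp h.measurable).integrable _)]
  conv_lhs => rw [← h.map_eq]
  exact integral_map h.measurable.aemeasurable hF.meas.aestronglyMeasurable

lemma ae_injective {V : Type*} [Countable V] {j : V → N} (hj : Function.Injective j) :
    ∀ᵐ b ∂(iidUniform N), Function.Injective fun v => b (j v) := by
  have : ∀ x y : V, ∀ᵐ b ∂(iidUniform N), b (j x) = b (j y) → x = y := by
    intro x y
    by_cases hxy : x = y
    · exact Filter.Eventually.of_forall fun _ _ => hxy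
    have hS : MeasurableSet {b : N → I | b (j x) = b (j y)} :=
      measurableSet_eq_fun (measurable_pi_apply _) (measurable_pi_apply _)
    have h0 : iidUniform N {b : N → I | b (j x) = b (j y)} = 0 := by
      rw [← (update_mp (j x)).measure_preimage hS.nullMeasurableSet,
        Measure.measure_prod_null ((update_mp (j x)).measurable hS)]
      refine Filter.Eventually.of_forall fun b => ?_
      have hne : j y ≠ j x := fun h => hxy (hj h).symm
      have : Prod.mk b ⁻¹' ((fun p : (N → I) × I => Function.update p.1 (j x) p.2) ⁻¹'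
          {b : N → I | b (j x) = b (j y)}) = {b (j y)} := by
        ext t; simp [hne]
      simp only [this, Pi.zero_apply, measure_singleton]
    rw [ae_iff]
    simpa [hxy] using h0
  filter_upwards [ae_all_iff.2 fun x => ae_all_iff.2 (this x)] with b hb
  exact fun x y => hb x y

lemma exists_split (M : Type) [Countable M] : ∃ spl : I → M → I, Measurable spl ∧
    ∀ V : Type, MeasurePreserving (fun (U : V → I) (p : V × M) => spl (U p.1) p.2)
      (iidUniform V) (iidUniform (V × M)) := by
  obtain ⟨f, hf, hmap⟩ := Measure.exists_measurable_map_eq (iidUniform M)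
  refine ⟨f, hf, fun V => ⟨by fun_prop, ?_⟩⟩
  have h1 := Measure.infinitePi_map_pi (fun _ : V => (volume : Measure I))
    (f := fun _ => f) (fun _ => hf)
  have h2 := Measure.infinitePi_map_curry_symm (fun (_ : V) (_ : M) => (volume : Measure I))
  simp only [hmap] at h1
  unfold iidUniform at h1 ⊢
  rw [← h2, ← h1, Measure.map_map (by fun_prop) (by fun_prop)]
  rfl

end Vale.Agent.P143
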