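import Vale.Agent.P143.Picard
import Vale.Agent.P143.Kirchhoff
import Vale.Agent.P143.Resample

namespace Vale.Agent.P143

open MeasureTheory unitInterval Classical

variable {V : Type*}

noncomputable def ind (T : Finset (Sym2 V)) (e : Sym2 V) : ℝ := if e ∈ T then 1 else 0

lemma ind_mem (T : Finset (Sym2 V)) (e : Sym2 V) : ind T e ∈ Set.Icc (0 : ℝ) 1 := by
  unfold ind; split_ifs <;> simp

noncomputable def lik (J : Finset (Sym2 V × ℕ)) (T : Finset (Sym2 V)) (y : Sym2 V × ℕ → ℝ) : ℝ :=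
  ∏ i ∈ J, dens (ind T i.1) (y i)

noncomputable def below (H : Finset (Sym2 V)) (lt : Sym2 V → Sym2 V → Prop) (i : Sym2 V × ℕ) :
    Finset (Sym2 V × ℕ) :=
  (H ×ˢ Finset.range (i.2 + 1)).filter fun p => p.2 < i.2 ∨ (p.2 = i.2 ∧ lt p.1 i.1)

lemma mem_below {H : Finset (Sym2 V)} {lt : Sym2 V → Sym2 V → Prop} {i p : Sym2 V × ℕ} :
    p ∈ below H lt i ↔ p.1 ∈ H ∧ (p.2 < i.2 ∨ (p.2 = i.2 ∧ lt p.1 i.1)) := by
  simp only [below, Finset.mem_filter, Finset.mem_product, Finset.mem_range]
  constructor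
  · exact fun h => ⟨h.1.1, h.2⟩
  · exact fun h => ⟨⟨h.1, by rcases h.2 with h | h <;> omega⟩, h.2⟩

lemma lik_below {H T : Finset (Sym2 V)} (hT : T ⊆ H) (lt : Sym2 V → Sym2 V → Prop)
    (i : Sym2 V × ℕ) {y : Sym2 V × ℕ → ℝ} (hy : ∀ p, y p ∈ Set.Icc (0 : ℝ) 1) :
    lik (below H lt i) T y = (∏ p ∈ below H lt i, dens 0 (y p)) *
      wt (fun f => Real.exp (state lt y i f)) T := by
  have h1 : ∀ p : Sym2 V × ℕ,
      dens (ind T p.1) (y p) = dens 0 (y p) * Real.exp (ind T p.1 * lam (y p)) := by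
    intro p
    unfold ind
    split_ifs
    · rw [one_mul, dens_one_eq (hy p)]
    · simp
  unfold lik wt
  simp only [h1]
  rw [Finset.prod_mul_distrib, ← Real.exp_sum, ← Real.exp_sum]
  congr 2
  unfold below
  rw [Finset.sum_filter, Finset.sum_product]
  have h2 : ∀ f ∈ H, (∑ j ∈ Finset.range (i.2 + 1),
      if j < i.2 ∨ (j = i.2 ∧ lt f i.1) then ind T f * lam (y (f, j)) else 0) =
      if f ∈ T then state lt y i f else 0 := by
    intro f _
    rw [Finset.sum_range_succ, Finset.sum_congr rfl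
      (fun j hj => if_pos (Or.inl (Finset.mem_range.1 hj)))]
    unfold ind state
    by_cases hf : f ∈ T <;> simp [hf]
  rw [Finset.sum_congr rfl h2, ← Finset.sum_filter, Finset.filter_mem_eq_inter,
    Finset.inter_eq_right.2 hT]

lemma posterior {W : Set V} {H : Finset (Sym2 V)}
    (hH : ∀ x y, s(x, y) ∈ H → x ≠ y ∧ x ∈ W) (hconn : ∀ x ∈ W, ∀ y ∈ W, Rch H x y)
    (lt : Sym2 V → Sym2 V → Prop) {i : Sym2 V × ℕ} (hi : i.1 ∈ H) {y : Sym2 V × ℕ → ℝ}
    (hy : ∀ p, y p ∈ Set.Icc (0 : ℝ) 1) (t : ℝ) :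
    ∑ T ∈ trees W H, dens (ind T i.1) t * lik (below H lt i) T y =
      dens (marg H (state lt y i) i.1) t * ∑ T ∈ trees W H, lik (below H lt i) T y := by
  have hnd : ¬ i.1.IsDiag := by
    obtain ⟨e, k⟩ := i
    induction e using Sym2.ind with
    | _ a b => simpa using (hH a b hi).1
  have k := kirchhoff hH hconn (c := fun f => Real.exp (state lt y i f))
    (fun _ => Real.exp_pos _) hi
  rw [marg_coe H _ hi hnd]
  change _ = mfin H (state lt y i) i.1 * _ at k
  rw [Finset.sum_congr rfl fun T hT => lik_below (mem_trees.1 hT).1 lt i hy,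
    Finset.sum_congr rfl fun T hT => by rw [lik_below (mem_trees.1 hT).1 lt i hy]]
  set C := ∏ p ∈ below H lt i, dens 0 (y p)
  set w := wt (fun f => Real.exp (state lt y i f))
  have : ∀ T ∈ trees W H, dens (ind T i.1) t * (C * w T) =
      C * dens 0 t * w T + C * (dens 1 t - dens 0 t) * (if i.1 ∈ T then w T else 0) := by
    intro T _
    unfold ind
    split_ifs <;> ring
  rw [Finset.sum_congr rfl this, Finset.sum_add_distrib, ← Finset.mul_sum, ← Finset.mul_sum,
    ← Finset.sum_filter, k, ← Finset.mul_sum, dens_affine (mfin H (state lt y i) i.1)]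
  ring

lemma state_congr {lt : Sym2 V → Sym2 V → Prop} {y y' : Sym2 V × ℕ → ℝ} {i : Sym2 V × ℕ}
    {f : Sym2 V} (h : ∀ j, (j < i.2 ∨ (j = i.2 ∧ lt f i.1)) → y (f, j) = y' (f, j)) :
    state lt y i f = state lt y' i f := by
  unfold state
  congr 1
  · exact Finset.sum_congr rfl fun j hj => by rw [h j (Or.inl (Finset.mem_range.1 hj))]
  · split_ifs with hl
    · rw [h i.2 (Or.inr ⟨rfl, hl⟩)]
    · rfl

lemma marg_state_congr {H : Finset (Sym2 V)} {lt : Sym2 V → Sym2 V → Prop}
    {y y' : Sym2 V × ℕ → ℝ} {i : Sym2 V × ℕ} (h : ∀ p ∈ below H lt i, y p = y' p) :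
    marg H (state lt y i) i.1 = marg H (state lt y' i) i.1 :=
  marg_congr (fun f hf => state_congr fun j hj => h (f, j) (mem_below.2 ⟨hf, hj⟩)) _

lemma lik_congr {J : Finset (Sym2 V × ℕ)} {T : Finset (Sym2 V)} {y y' : Sym2 V × ℕ → ℝ}
    (h : ∀ p ∈ J, y p = y' p) : lik J T y = lik J T y' :=
  Finset.prod_congr rfl fun p hp => by rw [h p hp]

/-- the data of a family of independent uniform variables indexed by the edges of `H` -/
structure Feed (H : Set (Sym2 V)) {N : Type*} (ι : Sym2 V × ℕ → N)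
    (U : (N → I) → Sym2 V × ℕ → I) : Prop where
  inj : ∀ p q : Sym2 V × ℕ, p.1 ∈ H → q.1 ∈ H → ι p = ι q → p = q
  eq : ∀ b p, p.1 ∈ H → U b p = b (ι p)
  meas : ∀ p, Measurable fun b => U b p

variable {N : Type*} {ι : Sym2 V × ℕ → N} {U : (N → I) → Sym2 V × ℕ → I}

lemma Feed.mono {H H' : Set (Sym2 V)} (h : Feed H' ι U) (hH : H ⊆ H') : Feed H ι U :=
  ⟨fun p q hp hq => h.inj p q (hH hp) (hH hq), fun b p hp => h.eq b p (hH hp), h.meas⟩

lemma Feed.update_self {H : Set (Sym2 V)} (h : Feed H ι U) (b : N → I) {i : Sym2 V × ℕ}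
    (hi : i.1 ∈ H) (t : I) : U (Function.update b (ι i) t) i = t := by
  rw [h.eq _ _ hi, Function.update_self]

lemma Feed.update_ne {H : Set (Sym2 V)} (h : Feed H ι U) (b : N → I) {i p : Sym2 V × ℕ}
    (hi : i.1 ∈ H) (hp : p.1 ∈ H) (hne : p ≠ i) (t : I) :
    U (Function.update b (ι i) t) p = U b p := by
  rw [h.eq _ _ hp, h.eq _ _ hp, Function.update_of_ne fun e => hne (h.inj _ _ hp hi e)]

lemma Feed.meas_coe {H : Set (Sym2 V)} (h : Feed H ι U) :
    Measurable fun b p => (U b p : ℝ) :=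
  measurable_pi_iff.2 fun p => measurable_subtype_coe.comp (h.meas p)

lemma Feed.bm_lik {H : Set (Sym2 V)} (h : Feed H ι U) (J : Finset (Sym2 V × ℕ))
    (T : Finset (Sym2 V)) : BM fun b => lik J T fun p => (U b p : ℝ) :=
  BM.prod J fun p _ => BM.of_mem (Measurable.dens measurable_const
    (measurable_subtype_coe.comp (h.meas p))) fun b => dens_mem (ind_mem _ _) (U b p).2

lemma lik_nonneg (J : Finset (Sym2 V × ℕ)) (T : Finset (Sym2 V)) (u : Sym2 V × ℕ → I) :
    0 ≤ lik J T fun p => (u p : ℝ) :=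
  Finset.prod_nonneg fun p _ => (dens_mem (ind_mem _ _) (u p).2).1

theorem law_identity [Countable V] {W : Set V} {H : Finset (Sym2 V)}
    (hH : ∀ x y, s(x, y) ∈ H → x ≠ y ∧ x ∈ W) (hconn : ∀ x ∈ W, ∀ y ∈ W, Rch H x y)
    {K : Type*} [LinearOrder K] {key : Sym2 V → K} (hkey : Set.InjOn key H)
    (hU : Feed (H : Set (Sym2 V)) ι U) (J : Finset (Sym2 V × ℕ)) :
    (∀ p ∈ J, p.1 ∈ H) → Closed (H : Set (Sym2 V)) (fun f g => key f < key g) J →
    ∀ g : (Sym2 V × ℕ → ℝ) → ℝ, BM g → (∀ y y', (∀ p ∈ J, y p = y' p) → g y = g y') →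
      (trees W H).card * ∫ b, g (Ysol H (fun f g => key f < key g) (U b)) ∂(iidUniform N) =
        ∫ b, g (fun p => U b p) * ∑ T ∈ trees W H, lik J T (fun p => U b p) ∂(iidUniform N) := by
  induction J using Finset.strongInduction with
  | _ J ih =>
  intro hJ hcl g hg hdep
  set lt : Sym2 V → Sym2 V → Prop := fun f g => key f < key g with hlt
  rcases J.eq_empty_or_nonempty with rfl | hne
  · have : ∀ y, g y = g 0 := fun y => hdep _ _ (by simp)
    simp [this, lik, mul_comm]
  obtain ⟨i, hi, hmax⟩ := Finset.exists_max_image J (fun p => toLex (p.2, key p.1)) hne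
  have hiH := hJ i hi
  have hlex : ∀ p q : Sym2 V × ℕ, toLex (p.2, key p.1) < toLex (q.2, key q.1) ↔
      (p.2 < q.2 ∨ (p.2 = q.2 ∧ lt p.1 q.1)) := fun p q => Prod.Lex.toLex_lt_toLex
  have hbel : J.erase i = below H lt i := by
    ext p
    rw [Finset.mem_erase, mem_below]
    constructor
    · rintro ⟨h1, h2⟩
      refine ⟨hJ p h2, (hlex p i).1 (lt_of_le_of_ne (hmax p h2) fun h => h1 ?_)⟩
      have h3 := Prod.ext_iff.1 (toLex.injective h)
      exact Prod.ext (hkey (hJ p h2) hiH h3.2) h3.1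
    · rintro ⟨h1, h2⟩
      refine ⟨?_, hcl i hi p.1 h1 p.2 h2⟩
      rintro rfl
      exact lt_irrefl _ ((hlex _ _).2 h2)
  have hnot : i ∉ below H lt i := hbel ▸ Finset.notMem_erase i J
  have hJeq : J = insert i (below H lt i) := by rw [← hbel, Finset.insert_erase hi]
  have hcl' : Closed (H : Set (Sym2 V)) lt (below H lt i) := by
    intro p hp f hf j hj
    rw [Finset.mem_coe, mem_below] at hp ⊢
    exact ⟨hf, (hlex (f, j) i).1 (((hlex (f, j) p).2 hj).trans ((hlex p i).2 hp.2))⟩
  have hbH : ∀ p ∈ below H lt i, p.1 ∈ H := fun p hp => (mem_below.1 hp).1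
  have hbne : ∀ p ∈ below H lt i, p ≠ i := fun p hp h => hnot (h ▸ hp)
  have mm : Measurable fun y : Sym2 V × ℕ → ℝ => marg H (state lt y i) i.1 :=
    measurable_marg (E := fun _ => (H : Set (Sym2 V))) (fun _ => MeasurableSet.const _)
      (measurable_state (lt := fun _ => lt) (fun _ _ => MeasurableSet.const _)
        (fun p => measurable_pi_apply p) i) _
  set G : (Sym2 V × ℕ → ℝ) → ℝ := fun y =>
    ∫ t : I, g (Function.update y i t) * dens (marg H (state lt y i) i.1) t with hG
  have bmG : BM G := by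
    refine BM.integral_right (F := fun q : (Sym2 V × ℕ → ℝ) × I =>
      g (Function.update q.1 i q.2) * dens (marg H (state lt q.1 i) i.1) q.2) (BM.mul ?_ ?_)
    · exact hg.comp (measurable_update'.comp
        (measurable_fst.prodMk (measurable_subtype_coe.comp measurable_snd)))
    · exact BM.of_mem (Measurable.dens (mm.comp measurable_fst)
        (measurable_subtype_coe.comp measurable_snd)) fun q => dens_mem (marg_mem _ _ _) q.2.2
  have upd : ∀ (y y' : Sym2 V × ℕ → ℝ) (t : ℝ), (∀ p ∈ below H lt i, y p = y' p) → y i = t →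
      g y = g (Function.update y' i t) := by
    intro y y' t h1 h2
    refine hdep _ _ fun p hp => ?_
    rw [hJeq, Finset.mem_insert] at hp
    rcases hp with rfl | hp
    · simp [h2]
    · rw [Function.update_of_ne (hbne p hp), h1 p hp]
  have depG : ∀ y y', (∀ p ∈ below H lt i, y p = y' p) → G y = G y' := by
    intro y y' h
    simp only [hG]
    rw [marg_state_congr h]
    congr 1
    ext t
    rw [upd (Function.update y i t) y' t
      (fun p hp => by rw [Function.update_of_ne (hbne p hp), h p hp]) (by simp)]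
  have IH := ih (below H lt i) (hbel ▸ Finset.erase_ssubset hi) hbH hcl' G bmG depG
  have mY : Measurable fun b => Ysol H lt (U b) :=
    measurable_pi_iff.2 (measurable_Ysol (E := fun _ => (H : Set (Sym2 V)))
      (fun _ => MeasurableSet.const _) (lt := fun _ => lt) (fun _ _ => MeasurableSet.const _)
      hU.meas)
  rw [integral_update (ι i) (hg.comp mY), integral_update (ι i)
    ((hg.comp hU.meas_coe).mul (BM.sum _ fun T _ => hU.bm_lik J T))]
  convert IH using 3 with b b
  · ext b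
    simp only [hG]
    rw [← integral_Qf (marg_mem _ _ _) (fun x => g (Function.update (Ysol H lt (U b)) i x))]
    congr 1
    ext t
    have agree : ∀ p ∈ below H lt i,
        Ysol H lt (U (Function.update b (ι i) t)) p = Ysol H lt (U b) p :=
      Ysol_congr hcl' fun p hp => hU.update_ne b hiH (hbH p hp) (hbne p hp) t
    refine upd _ _ _ agree ?_
    rw [Ysol_fixed, step, marg_state_congr agree, hU.update_self b hiH]
  · simp only [hG]
    rw [← integral_mul_const]
    congr 1
    ext t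
    have agree : ∀ p ∈ below H lt i,
        (U (Function.update b (ι i) t) p : ℝ) = U b p := fun p hp => by
      rw [hU.update_ne b hiH (hbH p hp) (hbne p hp) t]
    rw [upd _ (fun p => U b p) t agree (by rw [hU.update_self b hiH]), mul_assoc,
      ← posterior hH hconn lt hiH (fun p => (U b p).2)]
    congr 1
    refine Finset.sum_congr rfl fun T _ => ?_
    rw [← lik_congr agree]
    conv_lhs => rw [hJeq]
    rw [lik, Finset.prod_insert hnot, hU.update_self b hiH]
    rfl

end Vale.Agent.P143
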