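import Vale.Agent.P143.Exhaust

namespace Vale.Agent.P143

open MeasureTheory unitInterval Classical Filter Topology SimpleGraph

variable {V : Type*}

abbrev Slot := Option (ℕ × ℕ)

noncomputable def keyF (a : V → I) : Sym2 V → I ×ₗ I :=
  Sym2.lift ⟨fun x y => toLex (max (a x) (a y), min (a x) (a y)), fun x y => by
    simp only [max_comm, min_comm]⟩

lemma keyF_injective {a : V → I} (ha : Function.Injective a) : Function.Injective (keyF a) := by
  intro f g h
  induction f using Sym2.ind with
  | _ x y =>
  induction g using Sym2.ind with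
  | _ z w =>
    have h1 := Prod.ext_iff.1 (toLex.injective h)
    simp only at h1
    obtain ⟨h1, h2⟩ := h1
    rw [Sym2.eq_iff]
    rcases le_total (a x) (a y) with p | p <;> rcases le_total (a z) (a w) with q | q <;>
      simp only [max_eq_right, max_eq_left, min_eq_left, min_eq_right, p, q] at h1 h2
    · exact Or.inl ⟨ha h2, ha h1⟩
    · exact Or.inr ⟨ha h2, ha h1⟩
    · exact Or.inr ⟨ha h1, ha h2⟩
    · exact Or.inl ⟨ha h1, ha h2⟩

noncomputable def rank (G : SimpleGraph V) (a : V → I) (x y : V) : ℕ :=
  {w | G.Adj x w ∧ a w < a y}.ncard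

lemma rank_inj {G : SimpleGraph V} (hG : ∀ v, (G.neighborSet v).Finite) {a : V → I}
    (ha : Function.Injective a) {x y z : V} (hy : G.Adj x y) (hz : G.Adj x z)
    (h : rank G a x y = rank G a x z) : y = z := by
  have key : ∀ y z, G.Adj x y → a y < a z → rank G a x y < rank G a x z := by
    intro y z hy hlt
    refine Set.ncard_lt_ncard ⟨fun w hw => ⟨hw.1, hw.2.trans hlt⟩, fun hs => ?_⟩
      ((hG x).subset fun w hw => hw.1)
    exact lt_irrefl _ (hs ⟨hy, hlt⟩).2
  rcases lt_trichotomy (a y) (a z) with p | p | p
  · exact absurd h (key y z hy p).ne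
  · exact ha p
  · exact absurd h (key z y hz p).ne'

noncomputable def feed (G : SimpleGraph V) (a : V → I) (b : V × Slot → I) (p : Sym2 V × ℕ) : I :=
  Sym2.lift ⟨fun x y => if a y < a x then b (x, some (rank G a x y, p.2))
    else if a x < a y then b (y, some (rank G a y x, p.2)) else 0, fun x y => by
      rcases lt_trichotomy (a x) (a y) with h | h | h
      · simp [h, h.not_gt]
      · simp [h]
      · simp [h, h.not_gt]⟩ p.1

lemma feed_mk (G : SimpleGraph V) (a : V → I) (b : V × Slot → I) (x y : V) (k : ℕ) :
    feed G a b (s(x, y), k) = if a y < a x then b (x, some (rank G a x y, k))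
      else if a x < a y then b (y, some (rank G a y x, k)) else 0 := rfl

lemma measurable_feed [Countable V] {X : Type*} [MeasurableSpace X] {G : X → SimpleGraph V}
    (hG : Measurable G) {a : X → V → I} (ha : Measurable a) {b : X → V × Slot → I}
    (hb : Measurable b) (p : Sym2 V × ℕ) : Measurable fun x => feed (G x) (a x) (b x) p := by
  obtain ⟨e, k⟩ := p
  have hav : ∀ v, Measurable fun x => a x v := measurable_pi_iff.1 ha
  have h1 : ∀ v w, Measurable fun x => b x (v, some (rank (G x) (a x) v w, k)) := by
    intro v w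
    have r : Measurable fun x => rank (G x) (a x) v w := by
      refine measurable_ncard.comp (measurable_set_iff.2 fun z => ?_)
      exact (measurable_iff_adj.1 hG v z).and
        (measurableSet_setOfPred.1 (measurableSet_lt (hav z) (hav w)))
    have s : Measurable fun q : (V × Slot → I) × ℕ => q.1 (v, some (q.2, k)) :=
      measurable_from_prod_countable_left fun n => measurable_pi_apply (v, some (n, k))
    exact s.comp (hb.prodMk r)
  induction e using Sym2.ind with
  | _ v w =>
    simp only [feed_mk]
    exact Measurable.ite (measurableSet_lt (hav _) (hav _)) (h1 _ _)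
      (Measurable.ite (measurableSet_lt (hav _) (hav _)) (h1 _ _) measurable_const)

lemma exists_feed [Countable V] {G : SimpleGraph V} (hG : ∀ v, (G.neighborSet v).Finite)
    {a : V → I} (ha : Function.Injective a) :
    ∃ ι : Sym2 V × ℕ → V × Slot, Feed G.edgeSet ι (feed G a) := by
  refine ⟨fun p => Sym2.lift ⟨fun x y => if a y < a x then (x, some (rank G a x y, p.2))
    else (y, some (rank G a y x, p.2)), fun x y => ?_⟩ p.1, ?_, ?_, ?_⟩
  · rcases lt_trichotomy (a x) (a y) with h | h | h
    · simp [h, h.not_gt]
    · rw [ha h]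
    · simp [h, h.not_gt]
  · rintro ⟨e, k⟩ ⟨f, l⟩ he hf h
    induction e using Sym2.ind with
    | _ x y =>
    induction f using Sym2.ind with
    | _ z w =>
      have he : G.Adj x y := he
      have hf : G.Adj z w := hf
      simp only [Sym2.lift_mk] at h
      split_ifs at h <;> simp only [Prod.mk.injEq, Option.some.injEq] at h <;>
        obtain ⟨rfl, h, rfl⟩ := h
      · rw [rank_inj hG ha he hf h]
      · rw [rank_inj hG ha he hf.symm h, Sym2.eq_swap]
      · rw [rank_inj hG ha he.symm hf h, Sym2.eq_swap]
      · rw [rank_inj hG ha he.symm hf.symm h]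
  · rintro b ⟨e, k⟩ he
    induction e using Sym2.ind with
    | _ x y =>
      have he : G.Adj x y := he
      simp only [feed_mk, Sym2.lift_mk]
      split_ifs with h1 h2
      · rfl
      · rfl
      · exact absurd (ha (le_antisymm (not_lt.1 h1) (not_lt.1 h2))) he.ne
  · exact measurable_feed measurable_const measurable_const measurable_id

/-- the factor map, from the enlarged label space -/
noncomputable def Fac (G : SimpleGraph V) (ω : V × Slot → I) : Set (Sym2 V) :=
  Phi G.edgeSet (fun f g => keyF (fun v => ω (v, none)) f < keyF (fun v => ω (v, none)) g)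
    (feed G (fun v => ω (v, none)) ω)

lemma measurable_Fac [Countable V] :
    Measurable fun q : SimpleGraph V × (V × Slot → I) => Fac q.1 q.2 := by
  have hav : ∀ v, Measurable fun q : SimpleGraph V × (V × Slot → I) => q.2 (v, none) :=
    fun v => by fun_prop
  refine measurable_Phi (fun f => ?_) (fun f g => ?_)
    (measurable_feed measurable_fst (measurable_pi_iff.2 hav) measurable_snd)
  · exact measurableSet_setOfPred.2
      (measurable_set_iff.1 (measurable_edgeSet.comp measurable_fst) f)
  · induction f using Sym2.ind with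
    | _ x y =>
    induction g using Sym2.ind with
    | _ z w =>
      simp only [keyF, Sym2.lift_mk, Prod.Lex.toLex_lt_toLex, Set.ofPred_or, Set.ofPred_and]
      exact (measurableSet_lt ((hav _).max (hav _)) ((hav _).max (hav _))).union
        ((measurableSet_eq_fun ((hav _).max (hav _)) ((hav _).max (hav _))).inter
          (measurableSet_lt ((hav _).min (hav _)) ((hav _).min (hav _))))

lemma Phi_map {W : Type*} (τ : V ≃ W) {E : Set (Sym2 V)} {E' : Set (Sym2 W)}
    (hE : ∀ f : Sym2 V, f.map τ ∈ E' ↔ f ∈ E) {lt : Sym2 V → Sym2 V → Prop}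
    {lt' : Sym2 W → Sym2 W → Prop}
    (hlt : ∀ f g : Sym2 V, lt' (f.map τ) (g.map τ) ↔ lt f g) {u : Sym2 V × ℕ → I}
    {u' : Sym2 W × ℕ → I} (hu : ∀ f k, u' (Sym2.map τ f, k) = u (f, k)) (e : Sym2 V) :
    e.map τ ∈ Phi E' lt' u' ↔ e ∈ Phi E lt u := by
  simp only [Phi, Set.mem_ofPred_eq, soft, hE, Ysol_map τ hE hlt hu]

lemma Fac_map {W : Type*} {G : SimpleGraph V} {G' : SimpleGraph W} (τ : G ≃g G')
    {ω : V × Slot → I} {ω' : W × Slot → I} (h : ∀ v m, ω' (τ v, m) = ω (v, m)) (e : Sym2 V) :
    e.map τ ∈ Fac G' ω' ↔ e ∈ Fac G ω := by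
  have hk : ∀ f : Sym2 V,
      keyF (fun v => ω' (v, none)) (f.map τ) = keyF (fun v => ω (v, none)) f := by
    intro f
    induction f using Sym2.ind with
    | _ x y => simp only [keyF, Sym2.map_mk, Sym2.lift_mk, h]
  have hr : ∀ x y, rank G' (fun v => ω' (v, none)) (τ x) (τ y) =
      rank G (fun v => ω (v, none)) x y := by
    intro x y
    unfold rank
    rw [← Set.ncard_image_of_injective {w | G.Adj x w ∧ ω (w, none) < ω (y, none)} τ.injective]
    congr 1
    ext w
    obtain ⟨w, rfl⟩ := τ.surjective w
    rw [τ.injective.mem_set_image]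
    simp only [Set.mem_ofPred_eq, h, τ.map_adj_iff]
  refine Phi_map τ.toEquiv (fun f => τ.map_mem_edgeSet_iff) (fun f g => ?_) (fun f k => ?_) e
  · change keyF _ (f.map τ) < keyF _ (g.map τ) ↔ _
    rw [hk, hk]
  · induction f using Sym2.ind with
    | _ x y =>
      change feed _ _ _ (s(τ x, τ y), k) = _
      simp only [feed_mk, h, hr]

theorem Fac_isFUSF [Countable V] {G : SimpleGraph V} (hc : G.Connected)
    (hG : ∀ v, (G.neighborSet v).Finite) : IsFUSF G ((iidUniform (V × Slot)).map (Fac G)) := by
  have hm : Measurable (Fac G) := measurable_Fac.comp measurable_prodMk_left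
  refine ⟨Measure.isProbabilityMeasure_map hm.aemeasurable, exists_exhaustion hc,
    fun H hH A B => ?_⟩
  set S : Set (V × Slot) := {n | n.2 = none}
  have mp := piecewise_mp S
  have mC := hm (measurableSet_cyl A B)
  have hae : ∀ᵐ ω ∂(iidUniform (V × Slot)), Tendsto (fun n => ust (H n) (cyl A B)) atTop
      (𝓝 (iidUniform (V × Slot) {b | Fac G (S.piecewise ω b) ∈ cyl A B})) := by
    filter_upwards [ae_injective (j := fun v : V => (v, (none : Slot)))
      fun x y h => (Prod.ext_iff.1 h).1] with ω hω
    obtain ⟨ι, hι⟩ := exists_feed hG hω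
    have := ust_tendsto hH (keyF_injective hω).injOn hι A B
    convert this using 5 with b
    have e1 : (fun v => S.piecewise ω b (v, none)) = fun v => ω (v, none) := by
      ext v; rw [Set.piecewise_eq_of_mem _ _ _ (by simp [S])]
    unfold Fac
    have e2 : feed G (fun v => ω (v, none)) (S.piecewise ω b) =
        feed G (fun v => ω (v, none)) b := by
      funext ⟨e, k⟩
      induction e using Sym2.ind with
      | _ x y =>
        simp only [feed_mk]
        rw [Set.piecewise_eq_of_notMem _ _ _ (by simp [S]),
          Set.piecewise_eq_of_notMem _ _ _ (by simp [S])]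
    rw [e1, e2]
  obtain ⟨ω0, h0⟩ := hae.exists
  have : (iidUniform (V × Slot)).map (Fac G) (cyl A B) =
      iidUniform (V × Slot) {b | Fac G (S.piecewise ω0 b) ∈ cyl A B} := by
    rw [Measure.map_apply hm (measurableSet_cyl A B), ← mp.measure_preimage mC.nullMeasurableSet,
      Measure.prod_apply (mp.measurable mC)]
    rw [lintegral_congr_ae (g := fun _ =>
      iidUniform (V × Slot) {b | Fac G (S.piecewise ω0 b) ∈ cyl A B})]
    · simp
    · filter_upwards [hae] with ω hω
      exact tendsto_nhds_unique hω h0
  rwa [this]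

end Vale.Agent.P143
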