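import Vale.Agent.P143.Decode

namespace Vale.Agent.P143

open MeasureTheory unitInterval Classical Filter Topology

variable {V : Type*} {N : Type*} {ι : Sym2 V × ℕ → N} {U : (N → I) → Sym2 V × ℕ → I}

lemma abs_prod_sub_prod {α : Type*} (s : Finset α) {f g : α → ℝ}
    (hf : ∀ a, f a ∈ Set.Icc (0 : ℝ) 1) (hg : ∀ a, g a ∈ Set.Icc (0 : ℝ) 1) :
    |∏ a ∈ s, f a - ∏ a ∈ s, g a| ≤ ∑ a ∈ s, |f a - g a| := by
  induction s using Finset.induction_on with
  | empty => simp
  | insert a s ha ih =>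
    rw [Finset.prod_insert ha, Finset.prod_insert ha, Finset.sum_insert ha]
    have h1 : f a * ∏ a ∈ s, f a - g a * ∏ a ∈ s, g a =
        (f a - g a) * ∏ a ∈ s, f a + g a * (∏ a ∈ s, f a - ∏ a ∈ s, g a) := by ring
    have h2 : |∏ a ∈ s, f a| ≤ 1 := by
      rw [abs_of_nonneg (Finset.prod_nonneg fun a _ => (hf a).1)]
      exact Finset.prod_le_one (fun a _ => (hf a).1) fun a _ => (hf a).2
    have h3 : |g a| ≤ 1 := by rw [abs_of_nonneg (hg a).1]; exact (hg a).2
    rw [h1]
    refine (abs_add_le _ _).trans (add_le_add ?_ ?_) <;> rw [abs_mul]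
    · exact mul_le_of_le_one_right (abs_nonneg _) h2
    · exact (mul_le_of_le_one_left (abs_nonneg _) h3).trans ih

noncomputable def cylF (A B : Finset (Sym2 V)) (a : Sym2 V → ℝ) : ℝ :=
  (∏ e ∈ A, a e) * ∏ e ∈ B, (1 - a e)

lemma one_sub_mem {x : ℝ} (h : x ∈ Set.Icc (0 : ℝ) 1) : 1 - x ∈ Set.Icc (0 : ℝ) 1 :=
  ⟨by linarith [h.2], by linarith [h.1]⟩

lemma prod_mem {α : Type*} (s : Finset α) {f : α → ℝ} (hf : ∀ a, f a ∈ Set.Icc (0 : ℝ) 1) :
    ∏ a ∈ s, f a ∈ Set.Icc (0 : ℝ) 1 :=
  ⟨Finset.prod_nonneg fun a _ => (hf a).1, Finset.prod_le_one (fun a _ => (hf a).1)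
    fun a _ => (hf a).2⟩

lemma cylF_mem (A B : Finset (Sym2 V)) {a : Sym2 V → ℝ} (ha : ∀ e, a e ∈ Set.Icc (0 : ℝ) 1) :
    cylF A B a ∈ Set.Icc (0 : ℝ) 1 := by
  have h1 := prod_mem A ha
  have h2 := prod_mem B fun e => one_sub_mem (ha e)
  exact ⟨mul_nonneg h1.1 h2.1, mul_le_one₀ h1.2 h2.1 h2.2⟩

lemma cylF_sub (A B : Finset (Sym2 V)) {a b : Sym2 V → ℝ} (ha : ∀ e, a e ∈ Set.Icc (0 : ℝ) 1)
    (hb : ∀ e, b e ∈ Set.Icc (0 : ℝ) 1) :
    |cylF A B a - cylF A B b| ≤ 2 * ∑ e ∈ A ∪ B, |a e - b e| := by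
  have h1 := abs_prod_sub_prod A ha hb
  have h2 := abs_prod_sub_prod B (fun e => one_sub_mem (ha e)) (fun e => one_sub_mem (hb e))
  have h3 := prod_mem B fun e => one_sub_mem (ha e)
  have h4 := prod_mem A hb
  have e : ∀ e, |1 - a e - (1 - b e)| = |a e - b e| := fun e => by
    rw [abs_sub_comm]; congr 1; ring
  simp only [e] at h2
  have s1 : ∑ e ∈ A, |a e - b e| ≤ ∑ e ∈ A ∪ B, |a e - b e| :=
    Finset.sum_le_sum_of_subset_of_nonneg Finset.subset_union_left fun _ _ _ => abs_nonneg _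
  have s2 : ∑ e ∈ B, |a e - b e| ≤ ∑ e ∈ A ∪ B, |a e - b e| :=
    Finset.sum_le_sum_of_subset_of_nonneg Finset.subset_union_right fun _ _ _ => abs_nonneg _
  have : cylF A B a - cylF A B b = (∏ e ∈ A, a e - ∏ e ∈ A, b e) * ∏ e ∈ B, (1 - a e) +
      (∏ e ∈ A, b e) * (∏ e ∈ B, (1 - a e) - ∏ e ∈ B, (1 - b e)) := by unfold cylF; ring
  rw [this]
  refine (abs_add_le _ _).trans ?_
  rw [abs_mul, abs_mul, abs_of_nonneg h3.1, abs_of_nonneg h4.1]
  have t1 := mul_le_of_le_one_right (abs_nonneg (∏ e ∈ A, a e - ∏ e ∈ A, b e)) h3.2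
  have t2 := mul_le_of_le_one_left
    (abs_nonneg (∏ e ∈ B, (1 - a e) - ∏ e ∈ B, (1 - b e))) h4.2
  linarith

lemma cylF_ind (A B : Finset (Sym2 V)) (S : Set (Sym2 V)) :
    cylF A B (fun e => if e ∈ S then 1 else 0) = if S ∈ cyl A B then 1 else 0 := by
  unfold cylF cyl
  simp only [Set.mem_ofPred_eq]
  split_ifs with h
  · rw [Finset.prod_eq_one fun e he => if_pos (h.1 e he),
      Finset.prod_eq_one fun e he => by rw [if_neg (h.2 e he), sub_zero], mul_one]
  · rw [not_and_or] at h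
    rcases h with h | h <;> push Not at h <;> obtain ⟨e, he, h⟩ := h
    · rw [Finset.prod_eq_zero he (if_neg h), zero_mul]
    · rw [Finset.prod_eq_zero he (by rw [if_pos h, sub_self]), mul_zero]

noncomputable def psi (a b : ℝ) : ℝ := 2 * a * (1 - a) + |a - b| + 2 * b * (1 - b)

lemma psi_nonneg {a b : ℝ} (ha : a ∈ Set.Icc (0 : ℝ) 1) (hb : b ∈ Set.Icc (0 : ℝ) 1) :
    0 ≤ psi a b := by
  have := mul_nonneg ha.1 (sub_nonneg.2 ha.2)
  have := mul_nonneg hb.1 (sub_nonneg.2 hb.2)
  have := abs_nonneg (a - b)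
  unfold psi; linarith

lemma psi_le {a b t : ℝ} (ha : a ∈ Set.Icc (0 : ℝ) 1) (hb : b ∈ Set.Icc (0 : ℝ) 1)
    (ht : t = 0 ∨ t = 1) : psi a b ≤ 3 * (|a - t| + |b - t|) := by
  have h1 : |a - b| ≤ |a - t| + |b - t| := by
    rw [abs_sub_comm b t]; exact abs_sub_le a t b
  have key : ∀ x ∈ Set.Icc (0 : ℝ) 1, x * (1 - x) ≤ |x - t| := by
    intro x hx
    rcases ht with rfl | rfl
    · rw [sub_zero, abs_of_nonneg hx.1]; nlinarith [hx.1, hx.2]
    · rw [abs_sub_comm, abs_of_nonneg (by linarith [hx.2])]; nlinarith [hx.1, hx.2]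
  have := key a ha
  have := key b hb
  unfold psi; linarith

lemma tendsto_of_psi {a : ℕ → ℝ} (ha : ∀ j, a j ∈ Set.Icc (0 : ℝ) 1)
    (h : Tendsto (fun j => psi (a j) (a (j + 1))) atTop (𝓝 0)) :
    Tendsto a atTop (𝓝 (if ∀ᶠ j in atTop, 1 / 2 < a j then 1 else 0)) := by
  obtain ⟨M, hM⟩ := eventually_atTop.1 (h.eventually (gt_mem_nhds zero_lt_one))
  have up : ∀ x ∈ Set.Icc (0 : ℝ) 1, 1 / 2 < x → 1 - x ≤ 2 * x * (1 - x) := fun x hx h => by
    nlinarith [hx.2]
  have lo : ∀ x ∈ Set.Icc (0 : ℝ) 1, ¬ 1 / 2 < x → x ≤ 2 * x * (1 - x) := fun x hx h => by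
    nlinarith [hx.1]
  have c : ∀ j, M ≤ j → (1 / 2 < a j ↔ 1 / 2 < a M) := by
    intro j hj
    induction j, hj using Nat.le_induction with
    | base => rfl
    | succ j hj ih =>
      rw [← ih]
      have h1 := hM j hj
      unfold psi at h1
      by_contra hc
      by_cases x : 1 / 2 < a j
      · have y : ¬ 1 / 2 < a (j + 1) := fun y => hc ⟨fun _ => x, fun _ => y⟩
        linarith [up _ (ha j) x, lo _ (ha (j + 1)) y, le_abs_self (a j - a (j + 1))]
      · have y : 1 / 2 < a (j + 1) := by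
          by_contra y; exact hc ⟨fun h => (y h).elim, fun h => (x h).elim⟩
        linarith [lo _ (ha j) x, up _ (ha (j + 1)) y, neg_abs_le (a j - a (j + 1))]
  have ge : ∀ j, 2 * a j * (1 - a j) ≤ psi (a j) (a (j + 1)) := fun j => by
    have := mul_nonneg (ha (j + 1)).1 (sub_nonneg.2 (ha (j + 1)).2)
    have := abs_nonneg (a j - a (j + 1))
    unfold psi; linarith
  refine tendsto_iff_dist_tendsto_zero.2 (squeeze_zero' (Eventually.of_forall fun _ => dist_nonneg)
    (eventually_atTop.2 ⟨M, fun j hj => ?_⟩) h)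
  rw [Real.dist_eq]
  by_cases x : 1 / 2 < a M
  · rw [if_pos (eventually_atTop.2 ⟨M, fun j hj => (c j hj).2 x⟩), abs_sub_comm,
      abs_of_nonneg (sub_nonneg.2 (ha j).2)]
    exact (up _ (ha j) ((c j hj).2 x)).trans (ge j)
  · rw [if_neg, sub_zero, abs_of_nonneg (ha j).1]
    · exact (lo _ (ha j) fun h => x ((c j hj).1 h)).trans (ge j)
    · intro hev
      obtain ⟨j, h1, h2⟩ := (hev.and (eventually_ge_atTop M)).exists
      exact x ((c j h2).1 h1)

lemma ae_tendsto_zero {X : Type*} [MeasurableSpace X] {μ : Measure X} [IsFiniteMeasure μ]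
    {ψ : ℕ → X → ℝ} (hb : ∀ j, BM (ψ j)) (h0 : ∀ j x, 0 ≤ ψ j x) {C : ℝ}
    (hC : ∀ j, ∫ x, ψ j x ∂μ ≤ C * (1 / 2) ^ j) :
    ∀ᵐ x ∂μ, Tendsto (fun j => ψ j x) atTop (𝓝 0) := by
  have hm : ∀ j, Measurable fun x => ENNReal.ofReal (ψ j x) := fun j => (hb j).meas.ennreal_ofReal
  have h1 : ∫⁻ x, ∑' j, ENNReal.ofReal (ψ j x) ∂μ ≠ ⊤ := by
    rw [lintegral_tsum fun j => (hm j).aemeasurable]
    refine ne_top_of_le_ne_top
      (summable_geometric_two.mul_left C).tsum_ofReal_ne_top (ENNReal.tsum_le_tsum fun j => ?_)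
    rw [← ofReal_integral_eq_lintegral_ofReal ((hb j).integrable μ) (Eventually.of_forall (h0 j))]
    exact ENNReal.ofReal_le_ofReal (hC j)
  filter_upwards [ae_lt_top (Measurable.tsum hm) h1] with x hx
  have := (ENNReal.tendsto_toReal ENNReal.zero_ne_top).comp
    (ENNReal.tendsto_atTop_zero_of_tsum_ne_top hx.ne)
  simpa [Function.comp_def, h0] using this

/-- the decoded edge set -/
def Phi (E : Set (Sym2 V)) (lt : Sym2 V → Sym2 V → Prop) (u : Sym2 V × ℕ → I) : Set (Sym2 V) :=
  {e | ∀ᶠ j in atTop, 1 / 2 < soft E (Ysol E lt u) (e, j)}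

lemma measurable_Phi [Countable V] {X : Type*} [MeasurableSpace X] {E : X → Set (Sym2 V)}
    (hE : ∀ f, MeasurableSet {x | f ∈ E x})
    {lt : X → Sym2 V → Sym2 V → Prop} (hlt : ∀ f g, MeasurableSet {x | lt x f g})
    {u : X → Sym2 V × ℕ → I} (hu : ∀ i, Measurable fun x => u x i) :
    Measurable fun x => Phi (E x) (lt x) (u x) := by
  refine measurable_set_iff.2 fun e => ?_
  simp only [Phi, Set.mem_ofPred_eq, eventually_atTop]
  refine Measurable.exists fun M => Measurable.forall fun j => Measurable.imp measurable_const ?_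
  exact measurableSet_setOfPred.1 (measurableSet_lt measurable_const
    (measurable_soft hE (measurable_Ysol hE hlt hu) _))

lemma measurableSet_cyl (A B : Finset (Sym2 V)) : MeasurableSet (cyl A B) := by
  have : cyl A B = (⋂ e ∈ A, {S | e ∈ S}) ∩ ⋂ e ∈ B, {S | e ∈ S}ᶜ := by
    ext S; simp [cyl]
  rw [this]
  exact (Finset.measurableSet_biInter _ fun e _ => measurableSet_mem e).inter
    (Finset.measurableSet_biInter _ fun e _ => (measurableSet_mem e).compl)

theorem cyl_tendsto [Countable V] {E : Set (Sym2 V)} {W : ℕ → Set V} {H : ℕ → Finset (Sym2 V)}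
    (hH : ∀ n x y, s(x, y) ∈ H n → x ≠ y ∧ x ∈ W n)
    (hconn : ∀ n, ∀ x ∈ W n, ∀ y ∈ W n, Rch (H n) x y)
    (hsub : ∀ n, (H n : Set (Sym2 V)) ⊆ E) (hex : ∀ f ∈ E, ∀ᶠ n in atTop, f ∈ H n)
    {K : Type*} [LinearOrder K] {key : Sym2 V → K} (hkey : Set.InjOn key E)
    (hU : Feed E ι U) (A B : Finset (Sym2 V)) :
    Tendsto (fun n => (∑ T ∈ trees (W n) (H n),
        if (T : Set (Sym2 V)) ∈ cyl A B then (1 : ℝ) else 0) / (trees (W n) (H n)).card) atTop
      (𝓝 ((iidUniform N).real {b | Phi E (fun f g => key f < key g) (U b) ∈ cyl A B})) := by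
  set lt : Sym2 V → Sym2 V → Prop := fun f g => key f < key g with hlt
  have mY : ∀ E' : Set (Sym2 V), Measurable fun b => Ysol E' lt (U b) := fun E' =>
    measurable_pi_iff.2 (measurable_Ysol (E := fun _ => E')
      (fun _ => MeasurableSet.const _) (lt := fun _ => lt) (fun _ _ => MeasurableSet.const _)
      hU.meas)
  have dct : ∀ g : (Sym2 V × ℕ → ℝ) → ℝ, BM g → Continuous g →
      Tendsto (fun n => ∫ b, g (Ysol (H n) lt (U b)) ∂(iidUniform N)) atTop
        (𝓝 (∫ b, g (Ysol E lt (U b)) ∂(iidUniform N))) := by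
    intro g hg hc
    obtain ⟨C, hC⟩ := hg.bdd
    refine tendsto_integral_of_dominated_convergence (fun _ => C)
      (fun n => (hg.meas.comp (mY _)).aestronglyMeasurable) (integrable_const _)
      (fun n => Eventually.of_forall fun b => hC _) (Eventually.of_forall fun b => ?_)
    exact (hc.tendsto _).comp (tendsto_pi_nhds.2 (Ysol_tendsto hsub hex))
  have evS : ∀ S : Finset (Sym2 V × ℕ), ∀ᶠ n in atTop, ∀ q ∈ S, q.1 ∈ H n ∨ q.1 ∉ E := by
    intro S
    refine (eventually_all_finset S).2 fun q _ => ?_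
    by_cases h : q.1 ∈ E
    · exact (hex _ h).mono fun n hn => Or.inl hn
    · exact Eventually.of_forall fun n => Or.inr h
  have bms : ∀ q, BM fun y => soft E y q := fun q =>
    BM.of_mem (continuous_soft E q).measurable fun y => soft_mem E y q
  have ind01 : ∀ (T : Finset (Sym2 V)) e, ind T e = 0 ∨ ind T e = 1 := fun T e => by
    unfold ind; split_ifs <;> simp
  -- almost sure convergence of the soft decoders
  have ae1 : ∀ e, ∀ᵐ b ∂(iidUniform N), Tendsto (fun j => soft E (Ysol E lt (U b)) (e, j)) atTop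
      (𝓝 (if e ∈ Phi E lt (U b) then 1 else 0)) := by
    intro e
    have bmψ : ∀ j, BM fun y => psi (soft E y (e, j)) (soft E y (e, j + 1)) := fun j =>
      ((((BM.const 2).mul (bms _)).mul ((BM.const 1).sub (bms _))).add
        ((bms _).sub (bms _)).abs).add (((BM.const 2).mul (bms _)).mul ((BM.const 1).sub (bms _)))
    have cψ : ∀ j, Continuous fun y => psi (soft E y (e, j)) (soft E y (e, j + 1)) := fun j => by
      have h1 := continuous_soft E (e, j)
      have h2 := continuous_soft E (e, j + 1)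
      unfold psi; fun_prop
    have := ae_tendsto_zero (μ := iidUniform N) (fun j => (bmψ j).comp (mY E))
      (fun j b => psi_nonneg (soft_mem _ _ _) (soft_mem _ _ _)) (C := 1944) (fun j => by
        refine le_of_tendsto (dct _ (bmψ j) (cψ j)) ?_
        filter_upwards [evS {(e, j), (e, j + 1)}] with n hn
        have hne : (e, j) ≠ (e, j + 1) := by simp
        have := finite_bound (hH n) (hconn n) (hkey.mono (hsub n)) (hU.mono (hsub n)) (hsub n)
          {(e, j), (e, j + 1)} hn (bmψ j) (fun y y' h => by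
            rw [h (e, j) (by simp), h (e, j + 1) (by simp)]) (c := fun _ => 0) (w := 3)
          (by norm_num) (fun y T _ => by
            rw [Finset.sum_pair hne, sub_zero,
              abs_of_nonneg (psi_nonneg (soft_mem _ _ _) (soft_mem _ _ _))]
            exact psi_le (soft_mem _ _ _) (soft_mem _ _ _) (ind01 T e))
        rw [Finset.sum_pair hne, Finset.sum_const_zero, zero_div, sub_zero] at this
        refine ((le_abs_self _).trans this).trans (le_of_eq ?_)
        simp only [one_div, inv_pow, pow_succ]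
        field_simp
        norm_num)
    filter_upwards [this] with b hb
    exact tendsto_of_psi (fun j => soft_mem _ _ _) hb
  have bmc : ∀ j, BM fun y => cylF A B fun e => soft E y (e, j) := fun j =>
    (BM.prod _ fun e _ => bms _).mul (BM.prod _ fun e _ => (BM.const 1).sub (bms _))
  have cc : ∀ j, Continuous fun y => cylF A B fun e => soft E y (e, j) := fun j =>
    (continuous_finsetProd _ fun e _ => continuous_soft E _).mul
      (continuous_finsetProd _ fun e _ => continuous_const.sub (continuous_soft E _))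
  have mS : MeasurableSet {b | Phi E lt (U b) ∈ cyl A B} :=
    measurable_Phi (E := fun _ => E) (fun _ => MeasurableSet.const _) (lt := fun _ => lt)
      (fun _ _ => MeasurableSet.const _) hU.meas (measurableSet_cyl A B)
  have lim1 : Tendsto (fun j => ∫ b, cylF A B (fun e => soft E (Ysol E lt (U b)) (e, j))
      ∂(iidUniform N)) atTop (𝓝 ((iidUniform N).real {b | Phi E lt (U b) ∈ cyl A B})) := by
    rw [← integral_indicator_one mS]
    refine tendsto_integral_of_dominated_convergence (fun _ => 1)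
      (fun j => ((bmc j).meas.comp (mY _)).aestronglyMeasurable) (integrable_const _)
      (fun j => Eventually.of_forall fun b => ?_) ?_
    · have := cylF_mem A B fun e => soft_mem E (Ysol E lt (U b)) (e, j)
      rw [Real.norm_eq_abs, abs_of_nonneg this.1]; exact this.2
    · filter_upwards [ae_all_iff.2 ae1] with b hb
      have : Set.indicator {b | Phi E lt (U b) ∈ cyl A B} (1 : (N → I) → ℝ) b =
          cylF A B fun e => if e ∈ Phi E lt (U b) then 1 else 0 := by
        rw [cylF_ind, Set.indicator_apply]; rfl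
      rw [this]
      exact (tendsto_finsetProd _ fun e _ => hb e).mul
        (tendsto_finsetProd _ fun e _ => tendsto_const_nhds.sub (hb e))
  rw [Metric.tendsto_nhds]
  intro δ hδ
  obtain ⟨j, hj1, hj2⟩ := ((Metric.tendsto_nhds.1 lim1 (δ / 3) (by positivity)).and
    ((tendsto_half (2 * ((A ∪ B).card * 432))).eventually
      (gt_mem_nhds (show (0 : ℝ) < δ / 3 by positivity)))).exists
  have hinj : Function.Injective fun e : Sym2 V => (e, j) := fun a b h => (Prod.ext_iff.1 h).1
  filter_upwards [Metric.tendsto_nhds.1 (dct _ (bmc j) (cc j)) (δ / 3) (by positivity),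
    evS ((A ∪ B).image fun e => (e, j))] with n h1 h2
  have := finite_bound (hH n) (hconn n) (hkey.mono (hsub n)) (hU.mono (hsub n)) (hsub n)
    ((A ∪ B).image fun e => (e, j)) h2 (bmc j) (fun y y' h => by
      unfold cylF
      congr 1 <;> refine Finset.prod_congr rfl fun e he => ?_
      · exact h _ (Finset.mem_image_of_mem _ (Finset.mem_union_left _ he))
      · exact congrArg (1 - ·) (h _ (Finset.mem_image_of_mem _ (Finset.mem_union_right _ he))))
    (c := fun T => if (T : Set (Sym2 V)) ∈ cyl A B then (1 : ℝ) else 0) (w := 2) (by norm_num)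
    (fun y T _ => by
      rw [Finset.sum_image hinj.injOn, ← cylF_ind]
      convert cylF_sub A B (fun e => soft_mem E y (e, j)) (fun e => ind_mem T e) using 4
      ext e; simp [ind])
  rw [Finset.sum_image hinj.injOn] at this
  simp only [Finset.sum_const, nsmul_eq_mul] at this
  have e : (2 : ℝ) * ((A ∪ B).card * (432 / 2 ^ j)) = 2 * ((A ∪ B).card * 432) * (1 / 2) ^ j := by
    simp only [one_div, inv_pow]; ring
  rw [Real.dist_eq] at hj1 h1 ⊢
  rw [abs_le] at this
  rw [abs_lt] at hj1 h1 ⊢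
  constructor <;> linarith [this.1, this.2]

end Vale.Agent.P143
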