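import Vale.Agent.P143.Energy
import Vale.Agent.P143.Channel

namespace Vale.Agent.P143

open Filter Topology unitInterval Classical

variable {V : Type*}

noncomputable def state (lt : Sym2 V → Sym2 V → Prop) (y : Sym2 V × ℕ → ℝ) (i : Sym2 V × ℕ)
    (f : Sym2 V) : ℝ :=
  ∑ j ∈ Finset.range i.2, lam (y (f, j)) + if lt f i.1 then lam (y (f, i.2)) else 0

noncomputable def step (E : Set (Sym2 V)) (lt : Sym2 V → Sym2 V → Prop) (u : Sym2 V × ℕ → I)
    (y : Sym2 V × ℕ → ℝ) (i : Sym2 V × ℕ) : ℝ :=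
  Qf (marg E (state lt y i) i.1) (u i)

noncomputable def iter (E : Set (Sym2 V)) (lt : Sym2 V → Sym2 V → Prop) (u : Sym2 V × ℕ → I) :
    ℕ → Sym2 V × ℕ → ℝ
  | 0 => fun _ => 0
  | n + 1 => step E lt u (iter E lt u n)

noncomputable def Ysol (E : Set (Sym2 V)) (lt : Sym2 V → Sym2 V → Prop) (u : Sym2 V × ℕ → I)
    (i : Sym2 V × ℕ) : ℝ :=
  limUnder atTop fun n => iter E lt u n i

lemma marg_mem (E : Set (Sym2 V)) (l : Sym2 V → ℝ) (e : Sym2 V) :
    marg E l e ∈ Set.Icc (0 : ℝ) 1 := ⟨marg_nonneg E l e, marg_le_one E l e⟩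

variable {E : Set (Sym2 V)} {lt : Sym2 V → Sym2 V → Prop} {u u' : Sym2 V × ℕ → I}
  {y y' : Sym2 V × ℕ → ℝ}

lemma step_mem (y : Sym2 V × ℕ → ℝ) (i : Sym2 V × ℕ) : step E lt u y i ∈ Set.Icc (0 : ℝ) 1 :=
  (Qf_spec (marg_mem _ _ _) (u i).2).1

lemma iter_mem (n : ℕ) (i : Sym2 V × ℕ) : iter E lt u n i ∈ Set.Icc (0 : ℝ) 1 := by
  cases n with
  | zero => exact ⟨le_rfl, zero_le_one⟩
  | succ n => exact step_mem _ _

lemma geom_two (k : ℕ) : ∑ j ∈ Finset.range k, (2 : ℝ) ^ j ≤ 2 ^ k := by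
  induction k with
  | zero => simp
  | succ k ih => rw [Finset.sum_range_succ, pow_succ]; linarith

lemma state_close (hy : ∀ i, y i ∈ Set.Icc (0 : ℝ) 1) (hy' : ∀ i, y' i ∈ Set.Icc (0 : ℝ) 1)
    {δ : ℝ} (hδ : 0 ≤ δ) {i : Sym2 V × ℕ} {f : Sym2 V}
    (h : ∀ j, (j < i.2 ∨ (j = i.2 ∧ lt f i.1)) → |y (f, j) - y' (f, j)| ≤ 2 ^ j * δ) :
    |state lt y i f - state lt y' i f| ≤ 8 / 7 * (2 ^ i.2 * δ) := by
  have h1 : |∑ j ∈ Finset.range i.2, lam (y (f, j)) - ∑ j ∈ Finset.range i.2, lam (y' (f, j))|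
      ≤ 4 / 7 * (2 ^ i.2 * δ) := by
    rw [← Finset.sum_sub_distrib]
    refine (Finset.abs_sum_le_sum_abs _ _).trans ?_
    calc ∑ j ∈ Finset.range i.2, |lam (y (f, j)) - lam (y' (f, j))|
        ≤ ∑ j ∈ Finset.range i.2, 4 / 7 * (2 ^ j * δ) := Finset.sum_le_sum fun j hj =>
          (lam_lip (hy _) (hy' _)).trans (by
            have := h j (Or.inl (Finset.mem_range.1 hj)); linarith)
      _ = 4 / 7 * ((∑ j ∈ Finset.range i.2, (2 : ℝ) ^ j) * δ) := by
          rw [Finset.sum_mul, Finset.mul_sum]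
      _ ≤ _ := by
          have := mul_le_mul_of_nonneg_right (geom_two i.2) hδ
          linarith
  have h2 : |(if lt f i.1 then lam (y (f, i.2)) else 0) -
      (if lt f i.1 then lam (y' (f, i.2)) else 0)| ≤ 4 / 7 * (2 ^ i.2 * δ) := by
    split_ifs with hl
    · have := h i.2 (Or.inr ⟨rfl, hl⟩)
      exact (lam_lip (hy _) (hy' _)).trans (by linarith)
    · simp only [sub_self, abs_zero]; positivity
  unfold state
  rw [add_sub_add_comm]
  exact (abs_add_le _ _).trans (by linarith)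

/-- a set of indices containing, with an index, all the indices it looks at -/
def Closed (E : Set (Sym2 V)) (lt : Sym2 V → Sym2 V → Prop) (S : Set (Sym2 V × ℕ)) : Prop :=
  ∀ i ∈ S, ∀ f ∈ E, ∀ j, (j < i.2 ∨ (j = i.2 ∧ lt f i.1)) → (f, j) ∈ S

lemma step_close (hy : ∀ i, y i ∈ Set.Icc (0 : ℝ) 1) (hy' : ∀ i, y' i ∈ Set.Icc (0 : ℝ) 1)
    {δ : ℝ} (hδ : 0 ≤ δ) {S : Set (Sym2 V × ℕ)} (hS : Closed E lt S) (hu : ∀ i ∈ S, u i = u' i)
    (h : ∀ i ∈ S, |y i - y' i| ≤ 2 ^ i.2 * δ) :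
    ∀ i ∈ S, |step E lt u y i - step E lt u' y' i| ≤ 2 ^ i.2 * (δ / 2) := by
  intro i hi
  unfold step
  rw [← hu i hi]
  refine (Qf_lip (marg_mem _ _ _) (marg_mem _ _ _) (u i).2).trans ?_
  have hp : 0 ≤ 2 ^ i.2 * δ := by positivity
  have := marg_lip (E := E) (l := state lt y' i) (l' := state lt y i)
    (s := 8 / 7 * (2 ^ i.2 * δ)) (by positivity)
    (fun f hf => state_close hy hy' hδ fun j hj => h (f, j) (hS i hi f hf j hj)) i.1
  linarith

lemma closed_univ : Closed E lt Set.univ := fun _ _ _ _ _ _ => trivial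

lemma abs_le_two_pow (hy : ∀ i, y i ∈ Set.Icc (0 : ℝ) 1) (hy' : ∀ i, y' i ∈ Set.Icc (0 : ℝ) 1)
    (i : Sym2 V × ℕ) : |y i - y' i| ≤ 2 ^ i.2 * 1 := by
  have : (1 : ℝ) ≤ 2 ^ i.2 := one_le_pow₀ (by norm_num)
  rw [abs_le]; constructor <;> linarith [(hy i).1, (hy i).2, (hy' i).1, (hy' i).2]

lemma iter_succ_close (n : ℕ) (i : Sym2 V × ℕ) :
    |iter E lt u n i - iter E lt u (n + 1) i| ≤ 2 ^ i.2 * (1 / 2) ^ n := by
  induction n generalizing i with
  | zero => simpa using abs_le_two_pow (iter_mem 0) (iter_mem 1) i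
  | succ n ih =>
    have := step_close (E := E) (lt := lt) (u := u) (u' := u) (iter_mem n) (iter_mem (n + 1))
      (δ := (1 / 2) ^ n) (by positivity) closed_univ (fun _ _ => rfl) (fun i _ => ih i) i trivial
    exact this.trans (le_of_eq (by ring))

lemma iter_tendsto (i : Sym2 V × ℕ) :
    Tendsto (fun n => iter E lt u n i) atTop (𝓝 (Ysol E lt u i)) :=
  (cauchySeq_of_le_geometric (1 / 2) (2 ^ i.2) (by norm_num)
    (fun n => iter_succ_close n i)).tendsto_limUnder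

lemma iter_sub_Ysol (n : ℕ) (i : Sym2 V × ℕ) :
    |iter E lt u n i - Ysol E lt u i| ≤ 2 ^ i.2 * (2 * (1 / 2) ^ n) := by
  have := dist_le_of_le_geometric_of_tendsto (1 / 2) (2 ^ i.2) (by norm_num)
    (fun n => iter_succ_close (E := E) (lt := lt) (u := u) n i) (iter_tendsto i) n
  rw [Real.dist_eq] at this
  convert this using 1
  ring

lemma Ysol_mem (i : Sym2 V × ℕ) : Ysol E lt u i ∈ Set.Icc (0 : ℝ) 1 :=
  isClosed_Icc.mem_of_tendsto (iter_tendsto i) (Eventually.of_forall fun n => iter_mem n i)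

lemma tendsto_half (C : ℝ) : Tendsto (fun n : ℕ => C * (1 / 2 : ℝ) ^ n) atTop (𝓝 0) := by
  simpa using (tendsto_pow_atTop_nhds_zero_of_lt_one (r := (1 / 2 : ℝ)) (by norm_num)
    (by norm_num)).const_mul C

lemma tendsto_of_abs_le {α : Type*} {F : Filter α} {a b : α → ℝ} {x : ℝ}
    (h : ∀ n, |a n - x| ≤ b n) (hb : Tendsto b F (𝓝 0)) : Tendsto a F (𝓝 x) :=
  tendsto_iff_dist_tendsto_zero.2 (squeeze_zero (fun _ => dist_nonneg) h hb)

lemma Ysol_fixed (i : Sym2 V × ℕ) : Ysol E lt u i = step E lt u (Ysol E lt u) i := by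
  have h1 : Tendsto (fun n => iter E lt u (n + 1) i) atTop (𝓝 (Ysol E lt u i)) :=
    (iter_tendsto i).comp (tendsto_add_atTop_nat 1)
  refine tendsto_nhds_unique h1 (tendsto_of_abs_le (fun n => ?_) (tendsto_half (2 ^ i.2)))
  have := step_close (E := E) (lt := lt) (u := u) (u' := u) (y := iter E lt u n)
    (y' := Ysol E lt u) (iter_mem n) Ysol_mem
    (δ := 2 * (1 / 2) ^ n) (by positivity) closed_univ (fun _ _ => rfl)
    (fun i _ => iter_sub_Ysol n i) i trivial
  exact this.trans (le_of_eq (by ring))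

lemma Ysol_congr {S : Set (Sym2 V × ℕ)} (hS : Closed E lt S) (hu : ∀ i ∈ S, u i = u' i) :
    ∀ i ∈ S, Ysol E lt u i = Ysol E lt u' i := by
  have : ∀ n, ∀ i ∈ S, |iter E lt u n i - iter E lt u' n i| ≤ 2 ^ i.2 * 0 := by
    intro n
    induction n with
    | zero => intro i _; simp [iter]
    | succ n ih => simpa [iter] using step_close (iter_mem n) (iter_mem n) le_rfl hS hu ih
  intro i hi
  unfold Ysol
  congr 1
  ext n
  have := this n i hi
  rwa [mul_zero, abs_nonpos_iff, sub_eq_zero] at this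

lemma tendsto_lam {a : ℕ → ℝ} {x : ℝ} (ha : ∀ n, a n ∈ Set.Icc (0 : ℝ) 1)
    (hx : x ∈ Set.Icc (0 : ℝ) 1) (h : Tendsto a atTop (𝓝 x)) :
    Tendsto (fun n => lam (a n)) atTop (𝓝 (lam x)) := by
  refine tendsto_of_abs_le (fun n => lam_lip (ha n) hx) ?_
  simpa [Real.dist_eq] using (tendsto_iff_dist_tendsto_zero.1 h).const_mul (4 / 7)

lemma step_tendsto {En : ℕ → Set (Sym2 V)} (hsub : ∀ n, En n ⊆ E)
    (hex : ∀ f ∈ E, ∀ᶠ n in atTop, f ∈ En n) {yn : ℕ → Sym2 V × ℕ → ℝ}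
    (hyn : ∀ n i, yn n i ∈ Set.Icc (0 : ℝ) 1) (hy : ∀ i, y i ∈ Set.Icc (0 : ℝ) 1)
    (h : ∀ i, Tendsto (fun n => yn n i) atTop (𝓝 (y i))) (i : Sym2 V × ℕ) :
    Tendsto (fun n => step (En n) lt u (yn n) i) atTop (𝓝 (step E lt u y i)) := by
  have := marg_tendsto hsub hex (l := state lt y i) (ln := fun n => state lt (yn n) i)
    (B := 8 / 7 * (2 ^ i.2 * 1))
    (fun n f _ => state_close (hyn n) hy zero_le_one fun j _ => abs_le_two_pow (hyn n) hy (f, j))
    (fun f _ => by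
      unfold state
      refine Tendsto.add (tendsto_finsetSum _ fun j _ =>
        tendsto_lam (fun n => hyn n _) (hy _) (h _)) ?_
      split_ifs
      · exact tendsto_lam (fun n => hyn n _) (hy _) (h _)
      · exact tendsto_const_nhds) i.1
  refine tendsto_of_abs_le (fun n => Qf_lip (marg_mem _ _ _) (marg_mem _ _ _) (u i).2) ?_
  simpa [Real.dist_eq] using (tendsto_iff_dist_tendsto_zero.1 this).div_const 14

theorem Ysol_tendsto {En : ℕ → Set (Sym2 V)} (hsub : ∀ n, En n ⊆ E)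
    (hex : ∀ f ∈ E, ∀ᶠ n in atTop, f ∈ En n) (i : Sym2 V × ℕ) :
    Tendsto (fun n => Ysol (En n) lt u i) atTop (𝓝 (Ysol E lt u i)) := by
  have hN : ∀ N i, Tendsto (fun n => iter (En n) lt u N i) atTop (𝓝 (iter E lt u N i)) := by
    intro N
    induction N with
    | zero => intro i; exact tendsto_const_nhds
    | succ N ih => exact step_tendsto hsub hex (fun n => iter_mem N) (iter_mem N) ih
  rw [Metric.tendsto_nhds]
  intro δ hδ
  obtain ⟨N, hN'⟩ := ((tendsto_half (2 ^ i.2 * 2)).eventually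
    (gt_mem_nhds (show (0 : ℝ) < δ / 3 by positivity))).exists
  filter_upwards [Metric.tendsto_nhds.1 (hN N i) (δ / 3) (by positivity)] with n hn
  have a := iter_sub_Ysol (E := En n) (lt := lt) (u := u) N i
  have b := iter_sub_Ysol (E := E) (lt := lt) (u := u) N i
  rw [Real.dist_eq] at hn ⊢
  rw [abs_le] at a b
  rw [abs_lt] at hn ⊢
  constructor <;> nlinarith

section measurability
variable {X : Type*} [MeasurableSpace X]

lemma measurable_state {lt : X → Sym2 V → Sym2 V → Prop}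
    (hlt : ∀ f g, MeasurableSet {x | lt x f g}) {y : X → Sym2 V × ℕ → ℝ}
    (hy : ∀ i, Measurable fun x => y x i) (i : Sym2 V × ℕ) (f : Sym2 V) :
    Measurable fun x => state (lt x) (y x) i f := by
  unfold state
  refine Measurable.add (Finset.measurable_sum _ fun j _ => measurable_lam.comp (hy _)) ?_
  exact Measurable.ite (hlt _ _) (measurable_lam.comp (hy _)) measurable_const

theorem measurable_Ysol [Countable V] {E : X → Set (Sym2 V)} (hE : ∀ f, MeasurableSet {x | f ∈ E x})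
    {lt : X → Sym2 V → Sym2 V → Prop} (hlt : ∀ f g, MeasurableSet {x | lt x f g})
    {u : X → Sym2 V × ℕ → I} (hu : ∀ i, Measurable fun x => u x i) (i : Sym2 V × ℕ) :
    Measurable fun x => Ysol (E x) (lt x) (u x) i := by
  have hN : ∀ N i, Measurable fun x => iter (E x) (lt x) (u x) N i := by
    intro N
    induction N with
    | zero => intro i; exact measurable_const
    | succ N ih =>
      intro i
      exact Measurable.Qf (measurable_marg hE (measurable_state hlt ih i) i.1)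
        (measurable_subtype_coe.comp (hu i))
  exact measurable_of_tendsto_metrizable (fun N => hN N i)
    (tendsto_pi_nhds.2 fun x => iter_tendsto i)

end measurability

theorem Ysol_map {W : Type*} (τ : V ≃ W) {E' : Set (Sym2 W)}
    (hE : ∀ f : Sym2 V, f.map τ ∈ E' ↔ f ∈ E) {lt' : Sym2 W → Sym2 W → Prop}
    (hlt : ∀ f g : Sym2 V, lt' (f.map τ) (g.map τ) ↔ lt f g) {u' : Sym2 W × ℕ → I}
    (hu : ∀ f k, u' (Sym2.map τ f, k) = u (f, k)) (f : Sym2 V) (k : ℕ) :
    Ysol E' lt' u' (f.map τ, k) = Ysol E lt u (f, k) := by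
  have hN : ∀ N f k, iter E' lt' u' N (Sym2.map τ f, k) = iter E lt u N (f, k) := by
    intro N
    induction N with
    | zero => intro f k; rfl
    | succ N ih =>
      intro f k
      simp only [iter, step, hu]
      rw [marg_map τ hE]
      intro g
      simp only [state, ih, hlt]
  simp only [Ysol, hN]

end Vale.Agent.P143
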